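import Vale.Agent.Lib.P369G.ProofDefs

/-! # P369: one variable calculus for `g`, `ψ`, `κ` -/

namespace Vale.Agent.Lib.P369G

open Real

theorem gFun_zero : gFun 0 = 0 := by simp [gFun]

theorem gFun_continuous : Continuous gFun := by
  unfold gFun
  exact (Real.continuous_mul_log.comp (continuous_id.add continuous_const)).sub
    Real.continuous_mul_log

theorem log_one_add_one_div {y : ℝ} (hy : 0 < y) :
    Real.log (1 + 1 / y) = Real.log (y + 1) - Real.log y := by
  rw [show 1 + 1 / y = (y + 1) / y by field_simp]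
  exact Real.log_div (by positivity) (by positivity)

theorem gFun_hasDerivAt {y : ℝ} (hy : 0 < y) : HasDerivAt gFun (Real.log (1 + 1 / y)) y := by
  have hy1 : y + 1 ≠ 0 := by positivity
  have h1 : HasDerivAt (fun t : ℝ => t + 1) 1 y := (hasDerivAt_id y).add_const 1
  have h2 : HasDerivAt (fun t : ℝ => Real.log (t + 1)) (1 / (y + 1)) y := h1.log hy1
  have h3 : HasDerivAt (fun t : ℝ => (t + 1) * Real.log (t + 1))
      (1 * Real.log (y + 1) + (y + 1) * (1 / (y + 1))) y := h1.mul h2
  have h4 : HasDerivAt (fun t : ℝ => t * Real.log t) (1 * Real.log y + y * y⁻¹) y :=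
    (hasDerivAt_id y).mul (Real.hasDerivAt_log hy.ne')
  have h5 := h3.sub h4
  have h6 : 1 * Real.log (y + 1) + (y + 1) * (1 / (y + 1)) - (1 * Real.log y + y * y⁻¹)
      = Real.log (1 + 1 / y) := by
    rw [log_one_add_one_div hy]
    have : y * y⁻¹ = 1 := mul_inv_cancel₀ hy.ne'
    have : (y + 1) * (1 / (y + 1)) = 1 := by field_simp
    simp only [*]
    ring
  rw [h6] at h5
  exact h5

theorem log_beta_pos {y : ℝ} (hy : 0 < y) : 0 < Real.log (1 + 1 / y) := by
  apply Real.log_pos
  have : 0 < 1 / y := by positivity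
  linarith

theorem gFun_strictMonoOn : StrictMonoOn gFun (Set.Ici 0) := by
  apply strictMonoOn_of_deriv_pos (convex_Ici 0) gFun_continuous.continuousOn
  intro y hy
  rw [interior_Ici] at hy
  have hy' : 0 < y := hy
  rw [(gFun_hasDerivAt hy').deriv]
  exact log_beta_pos hy'

theorem gFun_nonneg {y : ℝ} (hy : 0 ≤ y) : 0 ≤ gFun y := by
  have := gFun_strictMonoOn.monotoneOn (Set.mem_Ici.2 le_rfl) (Set.mem_Ici.2 hy) hy
  rwa [gFun_zero] at this

theorem one_le_rho {y : ℝ} (hy : 0 < y) : 1 ≤ (y + 1) * Real.log (1 + 1 / y) := by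
  have hy1 : 0 < y + 1 := by positivity
  have h := Real.one_sub_inv_le_log_of_pos (show 0 < 1 + 1 / y by positivity)
  have h2 : 1 - (1 + 1 / y)⁻¹ = 1 / (y + 1) := by field_simp; ring
  rw [h2] at h
  have := mul_le_mul_of_nonneg_left h hy1.le
  rwa [show (y + 1) * (1 / (y + 1)) = 1 by field_simp] at this

theorem kappa_nonneg {y : ℝ} (hy : 0 < y) : 0 ≤ kappaFun y := by
  unfold kappaFun
  have h := one_le_rho hy
  have : 1 / ((y + 1) * Real.log (1 + 1 / y)) ≤ 1 := by
    rw [div_le_one (by linarith)]
    exact h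
  linarith

/-- `ρ(y) = (y+1) log(1+1/y)` is antitone on `y > 0`. -/
theorem rho_antitone {a b : ℝ} (ha : 0 < a) (hab : a ≤ b) :
    (b + 1) * Real.log (1 + 1 / b) ≤ (a + 1) * Real.log (1 + 1 / a) := by
  have hanti : AntitoneOn (fun y : ℝ => (y + 1) * (Real.log (y + 1) - Real.log y)) (Set.Ioi 0) := by
    apply antitoneOn_of_deriv_nonpos (convex_Ioi 0)
    · apply ContinuousOn.mul (by fun_prop)
      apply ContinuousOn.sub
      · apply ContinuousOn.log (by fun_prop)
        intro x hx
        have : 0 < x := hx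
        positivity
      · exact Real.continuousOn_log.mono (fun x hx => by
          have : 0 < x := hx
          simp only [Set.mem_compl_iff, Set.mem_singleton_iff]
          exact this.ne')
    · rw [interior_Ioi]
      intro x hx
      have hx' : 0 < x := hx
      have hd : HasDerivAt (fun y : ℝ => (y + 1) * (Real.log (y + 1) - Real.log y))
          (1 * (Real.log (x + 1) - Real.log x) + (x + 1) * (1 / (x + 1) - x⁻¹)) x := by
        have h1 : HasDerivAt (fun t : ℝ => t + 1) 1 x := (hasDerivAt_id x).add_const 1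
        have h2 : HasDerivAt (fun t : ℝ => Real.log (t + 1)) (1 / (x + 1)) x :=
          h1.log (by positivity)
        exact h1.mul (h2.sub (Real.hasDerivAt_log hx'.ne'))
      exact hd.differentiableAt.differentiableWithinAt
    · rw [interior_Ioi]
      intro x hx
      have hx' : 0 < x := hx
      have hd : HasDerivAt (fun y : ℝ => (y + 1) * (Real.log (y + 1) - Real.log y))
          (1 * (Real.log (x + 1) - Real.log x) + (x + 1) * (1 / (x + 1) - x⁻¹)) x := by
        have h1 : HasDerivAt (fun t : ℝ => t + 1) 1 x := (hasDerivAt_id x).add_const 1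
        have h2 : HasDerivAt (fun t : ℝ => Real.log (t + 1)) (1 / (x + 1)) x :=
          h1.log (by positivity)
        exact h1.mul (h2.sub (Real.hasDerivAt_log hx'.ne'))
      rw [hd.deriv]
      have hl : Real.log (x + 1) - Real.log x ≤ x⁻¹ := by
        rw [← log_one_add_one_div hx']
        have := Real.log_le_sub_one_of_pos (show 0 < 1 + 1 / x by positivity)
        simpa using this
      have hs : (x + 1) * (1 / (x + 1) - x⁻¹) = 1 - (x + 1) * x⁻¹ := by
        field_simp
      have hs2 : (x + 1) * x⁻¹ = 1 + x⁻¹ := by field_simp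
      rw [hs, hs2]
      linarith
  have := hanti (Set.mem_Ioi.2 ha) (Set.mem_Ioi.2 (lt_of_lt_of_le ha hab)) hab
  simp only at this
  rw [log_one_add_one_div ha, log_one_add_one_div (lt_of_lt_of_le ha hab)]
  exact this

/-- For `y ≥ 0`, `ψ(y) = g(y) - log (y+1)`. -/
theorem psi_eq {y : ℝ} (hy : 0 ≤ y) : psiFun y = gFun y - Real.log (y + 1) := by
  rcases hy.eq_or_lt with rfl | hy'
  · simp [psiFun, gFun]
  · unfold psiFun gFun
    rw [log_one_add_one_div hy']
    ring

/-- Tangent line of the concave function `ψ ∘ g⁻¹` at the point `g ystar`. -/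
theorem psi_tangent {ystar y : ℝ} (hs : 0 < ystar) (hy : 0 ≤ y) :
    psiFun y ≤ psiFun ystar + kappaFun ystar * (gFun y - gFun ystar) := by
  set θ : ℝ := 1 / ((ystar + 1) * Real.log (1 + 1 / ystar)) with hθ
  have hρ : 0 < (ystar + 1) * Real.log (1 + 1 / ystar) :=
    mul_pos (by positivity) (log_beta_pos hs)
  have hθpos : 0 < θ := by positivity
  have hk : kappaFun ystar = 1 - θ := rfl
  -- the function `φ = θ g - log (1 + ·)` is maximal at `ystar`
  set φ : ℝ → ℝ := fun t => θ * gFun t - Real.log (t + 1) with hφ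
  have hcont : ContinuousOn φ (Set.Ici 0) := by
    apply ContinuousOn.sub
    · exact continuousOn_const.mul gFun_continuous.continuousOn
    · apply ContinuousOn.log (by fun_prop)
      intro x hx
      have : (0 : ℝ) ≤ x := hx
      positivity
  have hderiv : ∀ t : ℝ, 0 < t →
      HasDerivAt φ (θ * Real.log (1 + 1 / t) - 1 / (t + 1)) t := by
    intro t ht
    have h1 : HasDerivAt (fun s : ℝ => s + 1) 1 t := (hasDerivAt_id t).add_const 1
    have h2 : HasDerivAt (fun s : ℝ => Real.log (s + 1)) (1 / (t + 1)) t := h1.log (by positivity)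
    exact ((gFun_hasDerivAt ht).const_mul θ).sub h2
  have hsign : ∀ t : ℝ, 0 < t →
      (θ * Real.log (1 + 1 / t) - 1 / (t + 1)) * (t + 1) =
        θ * ((t + 1) * Real.log (1 + 1 / t)) - 1 := by
    intro t ht
    have : t + 1 ≠ 0 := by positivity
    field_simp
  have hρθ : θ * ((ystar + 1) * Real.log (1 + 1 / ystar)) = 1 := by
    rw [hθ]
    exact one_div_mul_cancel hρ.ne'
  have hmono : MonotoneOn φ (Set.Icc 0 ystar) := by
    apply monotoneOn_of_deriv_nonneg (convex_Icc 0 ystar)
      (hcont.mono (fun x hx => hx.1))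
    · intro x hx
      rw [interior_Icc] at hx
      exact (hderiv x hx.1).differentiableAt.differentiableWithinAt
    · intro x hx
      rw [interior_Icc] at hx
      rw [(hderiv x hx.1).deriv]
      have hx1 : 0 < x + 1 := by linarith [hx.1]
      have h := hsign x hx.1
      have h2 := rho_antitone hx.1 hx.2.le
      have h3 := mul_le_mul_of_nonneg_left h2 hθpos.le
      rw [hρθ] at h3
      have h4 : 0 ≤ (θ * Real.log (1 + 1 / x) - 1 / (x + 1)) * (x + 1) := by
        rw [h]; linarith
      exact nonneg_of_mul_nonneg_left h4 hx1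
  have hanti : AntitoneOn φ (Set.Ici ystar) := by
    apply antitoneOn_of_deriv_nonpos (convex_Ici ystar)
      (hcont.mono (fun x (hx : ystar ≤ x) => (Set.mem_Ici.2 (hs.le.trans hx))))
    · intro x hx
      rw [interior_Ici] at hx
      have hx' : ystar < x := hx
      exact (hderiv x (hs.trans hx')).differentiableAt.differentiableWithinAt
    · intro x hx
      rw [interior_Ici] at hx
      have hx' : ystar < x := hx
      have hxpos : 0 < x := hs.trans hx'
      rw [(hderiv x hxpos).deriv]
      have hx1 : 0 < x + 1 := by linarith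
      have h := hsign x hxpos
      have h2 := rho_antitone hs hx'.le
      have h3 := mul_le_mul_of_nonneg_left h2 hθpos.le
      rw [hρθ] at h3
      have h4 : (θ * Real.log (1 + 1 / x) - 1 / (x + 1)) * (x + 1) ≤ 0 := by
        rw [h]; linarith
      by_contra hc
      push Not at hc
      have := mul_pos hc hx1
      linarith
  have hmax : φ y ≤ φ ystar := by
    rcases le_total y ystar with h | h
    · exact hmono ⟨hy, h⟩ ⟨hs.le, le_rfl⟩ h
    · exact hanti (Set.mem_Ici.2 le_rfl) (Set.mem_Ici.2 h) h
  rw [psi_eq hy, psi_eq hs.le, hk]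
  simp only [hφ] at hmax
  nlinarith [hmax]

end Vale.Agent.Lib.P369G
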