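import Mathlib

/-!
# P369: definitions for two-mode gauge-invariant states with finitely many photons

A state of two bosonic modes that commutes with the total photon number and has at most `K` photons
is a family of blocks `ρ k` (`k ≤ K`), where `ρ k` acts on the `k`-photon sector with orthonormal
basis `|k-i, i⟩`, `i = 0..k` (`k-i` photons in the first mode, `i` in the second).
-/

namespace Vale.Agent.Lib.P369G

open Matrix Finset
open scoped ComplexOrder

noncomputable section

/-- The function `g(t) = (t+1) log (t+1) - t log t`. -/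
def gFun (t : ℝ) : ℝ := (t + 1) * Real.log (t + 1) - t * Real.log t

/-- Von Neumann entropy (natural logarithm) of a Hermitian matrix: the sum of `-λ log λ` over its
eigenvalues (unnormalised matrices allowed; `0` for non-Hermitian input, which never occurs here). -/
def vnEnt {n : Type*} [Fintype n] [DecidableEq n] (A : Matrix n n ℂ) : ℝ :=
  if h : A.IsHermitian then ∑ i, Real.negMulLog (h.eigenvalues i) else 0

/-- A block family: `ρ k` acts on the `k`-photon sector of two modes, basis `|k-i, i⟩`. -/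
abbrev Blocks : Type := (k : ℕ) → Matrix (Fin (k + 1)) (Fin (k + 1)) ℂ

/-- Entropy of the block diagonal state `⊕_{k ≤ K} ρ k`. -/
def totalEnt (K : ℕ) (ρ : Blocks) : ℝ := ∑ k ∈ range (K + 1), vnEnt (ρ k)

/-- The square root coefficient of the Kraus operator that removes `r` photons from the first mode
and `s` photons from the second, on the output vector `|k-i, i⟩`:
`√(C(k-i+r, r) C(i+s, s))`. -/
def krausCoef (k r s : ℕ) (i : Fin (k + 1)) : ℝ :=
  Real.sqrt (((k - (i : ℕ) + r).choose r : ℝ) * (((i : ℕ) + s).choose s : ℝ))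

/-- Blocks of `ρ_C = Tr_b U_η (ρ ⊗ |0,0⟩⟨0,0|) U_η†`, the output of the beam splitter of transmissivity
`η` with vacuum on the modes `b`: for `U_η |a+r, b+s⟩|0,0⟩ = ∑ ± √(C(a+r,r) C(b+s,s) η^(a+b) (1-η)^(r+s)) |a,b⟩|r,s⟩`
the partial trace over `b` gives
`⟨k-i,i|ρ_C|k-i',i'⟩ = ∑_{r,s} η^k (1-η)^(r+s) c_i c_i' ⟨k-i+r,i+s|ρ|k-i'+r,i'+s⟩`. -/
def lossBlocks (K : ℕ) (η : ℝ) (ρ : Blocks) : Blocks := fun k =>
  Matrix.of fun i i' => ∑ r ∈ range (K + 1), ∑ s ∈ range (K + 1),
    ((η ^ k * (1 - η) ^ (r + s) * krausCoef k r s i * krausCoef k r s i' : ℝ) : ℂ) *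
      ρ (k + r + s) ⟨(i : ℕ) + s, by omega⟩ ⟨(i' : ℕ) + s, by omega⟩

/-- `ρ` is a density operator of two modes commuting with the photon number, with at most `K` photons. -/
structure IsGaugeState (K : ℕ) (ρ : Blocks) : Prop where
  psd : ∀ k, (ρ k).PosSemidef
  supp : ∀ k, K < k → ρ k = 0
  tr_one : ∑ k ∈ range (K + 1), (trace (ρ k)).re = 1

end

end Vale.Agent.Lib.P369G
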