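import Vale.Agent.Lib.P369G.Ladder

/-! # P369: the pure loss path `x ↦ lossBlocks K x ρ` -/

namespace Vale.Agent.Lib.P369G

open Matrix Finset Filter Topology
open scoped ComplexOrder

noncomputable section

theorem loss_apply (K : ℕ) (x : ℝ) (ρ : Blocks) (k : ℕ) (i i' : Fin (k + 1)) :
    lossBlocks K x ρ k i i' = ∑ r ∈ range (K + 1), ∑ s ∈ range (K + 1),
      ((x ^ k * (1 - x) ^ (r + s) * krausCoef k r s i * krausCoef k r s i' : ℝ) : ℂ) *
        ρ (k + r + s) ⟨(i : ℕ) + s, by omega⟩ ⟨(i' : ℕ) + s, by omega⟩ := rfl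

theorem loss_support (K : ℕ) (x : ℝ) {ρ : Blocks} (hsupp : ∀ k, K < k → ρ k = 0) {k : ℕ} (hk : K < k) :
    lossBlocks K x ρ k = 0 := by
  ext i i'
  rw [loss_apply]
  apply Finset.sum_eq_zero
  intro r _
  apply Finset.sum_eq_zero
  intro s _
  rw [hsupp (k + r + s) (by omega)]
  simp

theorem krausCoef_zero (k : ℕ) (i : Fin (k + 1)) : krausCoef k 0 0 i = 1 := by
  simp [krausCoef]

theorem loss_one (K : ℕ) {ρ : Blocks} (hsupp : ∀ k, K < k → ρ k = 0) (k : ℕ) :
    lossBlocks K 1 ρ k = ρ k := by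
  ext i i'
  rw [loss_apply, Finset.sum_eq_single 0, Finset.sum_eq_single 0]
  · simp [krausCoef_zero]
  · intro s _ hs
    have : (0 : ℝ) ^ s = 0 := zero_pow hs
    simp [this]
  · simp
  · intro r _ hr
    apply Finset.sum_eq_zero
    intro s _
    have : (0 : ℝ) ^ (r + s) = 0 := zero_pow (by omega)
    simp [this]
  · simp

theorem loss_continuous (K : ℕ) (ρ : Blocks) (k : ℕ) :
    Continuous (fun t : ℝ => lossBlocks K t ρ k) := by
  apply continuous_matrix
  intro i i'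
  simp only [loss_apply]
  apply continuous_finsetSum
  intro r _
  apply continuous_finsetSum
  intro s _
  apply Continuous.mul _ continuous_const
  apply Complex.continuous_ofReal.comp
  fun_prop

/-- Linear dependence on the input, entrywise continuity for the closure argument. -/
theorem loss_continuous_input (K : ℕ) (x : ℝ) (ρ τ : Blocks) (k : ℕ) :
    Continuous (fun e : ℝ => lossBlocks K x (fun m => (1 - e) • ρ m + e • τ m) k) := by
  apply continuous_matrix
  intro i i'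
  simp only [loss_apply, Matrix.add_apply, Matrix.smul_apply]
  apply continuous_finsetSum
  intro r _
  apply continuous_finsetSum
  intro s _
  apply Continuous.mul continuous_const
  fun_prop

/-- One Kraus term of the loss map. -/
def lossTerm (K : ℕ) (x : ℝ) (ρ : Blocks) (k r s : ℕ) : Matrix (Fin (k + 1)) (Fin (k + 1)) ℂ :=
  Matrix.of fun i i' => ((x ^ k * (1 - x) ^ (r + s) * krausCoef k r s i * krausCoef k r s i' : ℝ) : ℂ) *
        ρ (k + r + s) ⟨(i : ℕ) + s, by omega⟩ ⟨(i' : ℕ) + s, by omega⟩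

theorem loss_eq_sum (K : ℕ) (x : ℝ) (ρ : Blocks) (k : ℕ) :
    lossBlocks K x ρ k = ∑ r ∈ range (K + 1), ∑ s ∈ range (K + 1), lossTerm K x ρ k r s := by
  ext i i'
  simp only [Matrix.sum_apply]
  rfl

theorem lossTerm_posSemidef (K : ℕ) {x : ℝ} (h0 : 0 ≤ x) (h1 : x ≤ 1) {ρ : Blocks}
    (hpsd : ∀ k, (ρ k).PosSemidef) (k r s : ℕ) : (lossTerm K x ρ k r s).PosSemidef := by
  set e : Fin (k + 1) → Fin (k + r + s + 1) := fun i => ⟨(i : ℕ) + s, by omega⟩ with he
  set D : Matrix (Fin (k + 1)) (Fin (k + 1)) ℂ := diagonal (fun i => ((krausCoef k r s i : ℝ) : ℂ)) with hD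
  have hsub : ((ρ (k + r + s)).submatrix e e).PosSemidef := (hpsd _).submatrix e
  have hconj := hsub.mul_mul_conjTranspose_same D
  have hc : (0 : ℝ) ≤ x ^ k * (1 - x) ^ (r + s) :=
    mul_nonneg (pow_nonneg h0 _) (pow_nonneg (sub_nonneg.2 h1) _)
  have hs := hconj.smul hc
  have heq : lossTerm K x ρ k r s = (x ^ k * (1 - x) ^ (r + s) : ℝ) • (D * (ρ (k + r + s)).submatrix e e * Dᴴ) := by
    ext i i'
    simp only [lossTerm, Matrix.of_apply, Matrix.smul_apply, hD, diagonal_conjTranspose,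
      Matrix.mul_diagonal, Matrix.diagonal_mul, Matrix.submatrix_apply, Pi.star_apply]
    simp only [Complex.real_smul, he, RCLike.star_def, Complex.conj_ofReal]
    push_cast
    ring
  rw [heq]
  exact hs

theorem loss_posSemidef (K : ℕ) {x : ℝ} (h0 : 0 ≤ x) (h1 : x ≤ 1) {ρ : Blocks}
    (hpsd : ∀ k, (ρ k).PosSemidef) (k : ℕ) : (lossBlocks K x ρ k).PosSemidef := by
  rw [loss_eq_sum]
  apply Matrix.posSemidef_sum
  intro r _
  apply Matrix.posSemidef_sum
  intro s _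
  exact lossTerm_posSemidef K h0 h1 hpsd k r s

/-- Paper proof: the term `r = s = 0` is `x^k ρ k`, the others are positive semidefinite. -/
theorem loss_posDef (K : ℕ) {x : ℝ} (h0 : 0 < x) (h1 : x ≤ 1) {ρ : Blocks}
    (hpsd : ∀ k, (ρ k).PosSemidef) {k : ℕ} (hk : (ρ k).PosDef) : (lossBlocks K x ρ k).PosDef := by
  have h00 : lossTerm K x ρ k 0 0 = (x ^ k : ℝ) • ρ k := by
    ext i i'
    simp [lossTerm, krausCoef_zero, Complex.real_smul]
  have hsplit : lossBlocks K x ρ k = lossTerm K x ρ k 0 0 +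
      (∑ s ∈ (range (K + 1)).erase 0, lossTerm K x ρ k 0 s
        + ∑ r ∈ (range (K + 1)).erase 0, ∑ s ∈ range (K + 1), lossTerm K x ρ k r s) := by
    rw [loss_eq_sum, ← Finset.add_sum_erase _ _ (Finset.mem_range.2 (Nat.succ_pos K)),
      ← Finset.add_sum_erase (range (K + 1)) (fun s => lossTerm K x ρ k 0 s) (Finset.mem_range.2 (Nat.succ_pos K))]
    rw [add_assoc]
  rw [hsplit, h00]
  apply (hk.smul (pow_pos h0 k)).add_posSemidef
  apply Matrix.PosSemidef.add
  · apply Matrix.posSemidef_sum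
    intro s _
    exact lossTerm_posSemidef K h0.le h1 hpsd k 0 s
  · apply Matrix.posSemidef_sum
    intro r _
    apply Matrix.posSemidef_sum
    intro s _
    exact lossTerm_posSemidef K h0.le h1 hpsd k r s

/-! ### The generator -/

/-- The coefficient `√(C(a+r, r) C(b+s, s))`. -/
def cf (a r b s : ℕ) : ℝ := Real.sqrt (((a + r).choose r : ℝ) * ((b + s).choose s : ℝ))

theorem krausCoef_eq (k r s : ℕ) (i : Fin (k + 1)) : krausCoef k r s i = cf (k - i) r i s := rfl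

theorem krausCoef_castSucc (k r s : ℕ) (i : Fin (k + 1)) :
    krausCoef (k + 1) r s i.castSucc = cf (k - i + 1) r i s := by
  have hi : (i : ℕ) ≤ k := by omega
  simp only [krausCoef, cf, Fin.val_castSucc]
  rw [Nat.succ_sub hi]

theorem krausCoef_succ (k r s : ℕ) (i : Fin (k + 1)) :
    krausCoef (k + 1) r s i.succ = cf (k - i) r (i + 1) s := by
  simp only [krausCoef, cf, Fin.val_succ]
  rw [Nat.add_sub_add_right]

theorem cf_nonneg (a r b s : ℕ) : 0 ≤ cf a r b s := Real.sqrt_nonneg _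

/-- `√(a+1) cf (a+1) r b s = √(r+1) cf a (r+1) b s`. -/
theorem cf_shift_one (a r b s : ℕ) :
    Real.sqrt ((a : ℝ) + 1) * cf (a + 1) r b s = Real.sqrt ((r : ℝ) + 1) * cf a (r + 1) b s := by
  unfold cf
  rw [← Real.sqrt_mul (by positivity), ← Real.sqrt_mul (by positivity)]
  congr 1
  have h : ((a + 1 + r).choose r : ℕ) * (a + 1) = (a + (r + 1)).choose (r + 1) * (r + 1) := by
    have h1 := Nat.choose_succ_right_eq (a + 1 + r) r
    rw [show a + 1 + r - r = a + 1 by omega] at h1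
    rw [show a + (r + 1) = a + 1 + r by omega, h1]
  have h' : (((a + 1 + r).choose r : ℕ) : ℝ) * ((a : ℝ) + 1) = ((a + (r + 1)).choose (r + 1) : ℝ) * ((r : ℝ) + 1) := by
    exact_mod_cast h
  calc _ = (((a + 1 + r).choose r : ℕ) : ℝ) * ((a : ℝ) + 1) * ((b + s).choose s : ℝ) := by ring
    _ = _ := by rw [h']; ring

/-- `√(b+1) cf a r (b+1) s = √(s+1) cf a r b (s+1)`. -/
theorem cf_shift_two (a r b s : ℕ) :
    Real.sqrt ((b : ℝ) + 1) * cf a r (b + 1) s = Real.sqrt ((s : ℝ) + 1) * cf a r b (s + 1) := by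
  unfold cf
  rw [← Real.sqrt_mul (by positivity), ← Real.sqrt_mul (by positivity)]
  congr 1
  have h : ((b + 1 + s).choose s : ℕ) * (b + 1) = (b + (s + 1)).choose (s + 1) * (s + 1) := by
    have h1 := Nat.choose_succ_right_eq (b + 1 + s) s
    rw [show b + 1 + s - s = b + 1 by omega] at h1
    rw [show b + (s + 1) = b + 1 + s by omega, h1]
  have h' : (((b + 1 + s).choose s : ℕ) : ℝ) * ((b : ℝ) + 1) = ((b + (s + 1)).choose (s + 1) : ℝ) * ((s : ℝ) + 1) := by
    exact_mod_cast h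
  calc _ = ((a + r).choose r : ℝ) * ((((b + 1 + s).choose s : ℕ) : ℝ) * ((b : ℝ) + 1)) := by ring
    _ = _ := by rw [h']; ring

/-- The entry of a block as a function of naturals. -/
def rhoE (ρ : Blocks) (n b b' : ℕ) : ℂ :=
  if h : b < n + 1 ∧ b' < n + 1 then ρ n ⟨b, h.1⟩ ⟨b', h.2⟩ else 0

theorem rhoE_of_supp {K : ℕ} {ρ : Blocks} (hsupp : ∀ k, K < k → ρ k = 0) {n : ℕ} (hn : K < n) (b b' : ℕ) :
    rhoE ρ n b b' = 0 := by
  unfold rhoE
  rw [hsupp n hn]
  simp

theorem rhoE_fin (ρ : Blocks) (n : ℕ) (b b' : Fin (n + 1)) : ρ n b b' = rhoE ρ n b b' := by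
  unfold rhoE
  rw [dif_pos ⟨b.2, b'.2⟩]

theorem aOne_apply (k : ℕ) (i : Fin (k + 1)) (j : Fin (k + 2)) :
    aOne k i j = if j = i.castSucc then ((Real.sqrt ((k : ℝ) + 1 - (i : ℕ)) : ℝ) : ℂ) else 0 := by
  simp only [aOne, Matrix.of_apply, Fin.ext_iff, Fin.val_castSucc]

theorem aTwo_apply (k : ℕ) (i : Fin (k + 1)) (j : Fin (k + 2)) :
    aTwo k i j = if j = i.succ then ((Real.sqrt ((i : ℝ) + 1) : ℝ) : ℂ) else 0 := by
  simp only [aTwo, Matrix.of_apply, Fin.ext_iff, Fin.val_succ]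

theorem lam_apply (k : ℕ) (X : Matrix (Fin (k + 2)) (Fin (k + 2)) ℂ) (i i' : Fin (k + 1)) :
    lamMap k X i i' =
      ((Real.sqrt ((k : ℝ) + 1 - (i : ℕ)) * Real.sqrt ((k : ℝ) + 1 - (i' : ℕ)) : ℝ) : ℂ) * X i.castSucc i'.castSucc
      + ((Real.sqrt ((i : ℝ) + 1) * Real.sqrt ((i' : ℝ) + 1) : ℝ) : ℂ) * X i.succ i'.succ := by
  simp only [lamMap, Matrix.add_apply, Matrix.mul_apply, Matrix.conjTranspose_apply, aOne_apply, aTwo_apply]
  congr 1
  · rw [Finset.sum_eq_single i'.castSucc]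
    · rw [Finset.sum_eq_single i.castSucc]
      · simp
        ring
      · intro j _ hj
        simp [hj]
      · simp
    · intro j _ hj
      simp [hj]
    · simp
  · rw [Finset.sum_eq_single i'.succ]
    · rw [Finset.sum_eq_single i.succ]
      · simp
        ring
      · intro j _ hj
        simp [hj]
      · simp
    · intro j _ hj
      simp [hj]
    · simp

theorem sqrt_k_sub (k : ℕ) (i : Fin (k + 1)) :
    (k : ℝ) + 1 - (i : ℕ) = ((k - i : ℕ) : ℝ) + 1 := by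
  have hi : (i : ℕ) ≤ k := by omega
  rw [Nat.cast_sub hi]
  ring

theorem loss_apply_E (K : ℕ) (x : ℝ) (ρ : Blocks) (k : ℕ) (i i' : Fin (k + 1)) :
    lossBlocks K x ρ k i i' = ∑ r ∈ range (K + 1), ∑ s ∈ range (K + 1),
      ((x ^ k * (1 - x) ^ (r + s) * krausCoef k r s i * krausCoef k r s i' : ℝ) : ℂ) *
        rhoE ρ (k + r + s) ((i : ℕ) + s) ((i' : ℕ) + s) := by
  rw [loss_apply]
  apply Finset.sum_congr rfl
  intro r _
  apply Finset.sum_congr rfl
  intro s _
  unfold rhoE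
  rw [dif_pos ⟨by omega, by omega⟩]

/-- Shift of a summation index. -/
theorem sum_shift (K : ℕ) (A B : ℕ → ℂ) (hA : A K = 0) (hB : B 0 = 0) (h : ∀ r, r < K → A r = B (r + 1)) :
    ∑ r ∈ range (K + 1), A r = ∑ r ∈ range (K + 1), B r := by
  rw [Finset.sum_range_succ, hA, add_zero, Finset.sum_range_succ', hB, add_zero]
  apply Finset.sum_congr rfl
  intro r hr
  exact h r (mem_range.1 hr)

/-- The first piece of `Λ(σ_{k+1})` after the index shift `r → r + 1`. -/
theorem lam_one_eq (K : ℕ) (x : ℝ) {ρ : Blocks} (hsupp : ∀ k, K < k → ρ k = 0) (k : ℕ) (i i' : Fin (k + 1)) :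
    ((Real.sqrt ((k : ℝ) + 1 - (i : ℕ)) * Real.sqrt ((k : ℝ) + 1 - (i' : ℕ)) : ℝ) : ℂ) *
        lossBlocks K x ρ (k + 1) i.castSucc i'.castSucc
      = ∑ r ∈ range (K + 1), ∑ s ∈ range (K + 1),
        (((r : ℝ) * x ^ (k + 1) * (1 - x) ^ (r + s - 1) * krausCoef k r s i * krausCoef k r s i' : ℝ) : ℂ) *
          rhoE ρ (k + r + s) ((i : ℕ) + s) ((i' : ℕ) + s) := by
  rw [loss_apply_E, Finset.mul_sum]
  apply sum_shift
  · rw [Finset.mul_sum]
    apply Finset.sum_eq_zero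
    intro s _
    rw [rhoE_of_supp hsupp (by omega)]
    simp
  · apply Finset.sum_eq_zero
    intro s _
    simp
  intro r _
  rw [Finset.mul_sum]
  apply Finset.sum_congr rfl
  intro s _
  have hidx : k + 1 + r + s = k + (r + 1) + s := by omega
  have hz : rhoE ρ (k + 1 + r + s) ((i.castSucc : ℕ) + s) ((i'.castSucc : ℕ) + s)
      = rhoE ρ (k + (r + 1) + s) ((i : ℕ) + s) ((i' : ℕ) + s) := by
    rw [hidx]
    rfl
  rw [hz, ← mul_assoc, ← Complex.ofReal_mul]
  congr 2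
  rw [krausCoef_castSucc, krausCoef_castSucc, krausCoef_eq, krausCoef_eq, sqrt_k_sub, sqrt_k_sub]
  have e1 := cf_shift_one (k - i) r i s
  have e2 := cf_shift_one (k - i') r i' s
  have hr : Real.sqrt ((r : ℝ) + 1) * Real.sqrt ((r : ℝ) + 1) = (r : ℝ) + 1 :=
    Real.mul_self_sqrt (by positivity)
  rw [show r + 1 + s - 1 = r + s by omega]
  push_cast
  calc _ = x ^ (k + 1) * (1 - x) ^ (r + s) * (Real.sqrt (((k - i : ℕ) : ℝ) + 1) * cf (k - i + 1) r i s)
          * (Real.sqrt (((k - i' : ℕ) : ℝ) + 1) * cf (k - i' + 1) r i' s) := by ring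
    _ = x ^ (k + 1) * (1 - x) ^ (r + s) * (Real.sqrt ((r : ℝ) + 1) * cf (k - i) (r + 1) i s)
          * (Real.sqrt ((r : ℝ) + 1) * cf (k - i') (r + 1) i' s) := by rw [e1, e2]
    _ = x ^ (k + 1) * (1 - x) ^ (r + s) * (Real.sqrt ((r : ℝ) + 1) * Real.sqrt ((r : ℝ) + 1))
          * cf (k - i) (r + 1) i s * cf (k - i') (r + 1) i' s := by ring
    _ = _ := by rw [hr]; ring

/-- The second piece of `Λ(σ_{k+1})` after the index shift `s → s + 1`. -/
theorem lam_two_eq (K : ℕ) (x : ℝ) {ρ : Blocks} (hsupp : ∀ k, K < k → ρ k = 0) (k : ℕ) (i i' : Fin (k + 1)) :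
    ((Real.sqrt ((i : ℝ) + 1) * Real.sqrt ((i' : ℝ) + 1) : ℝ) : ℂ) *
        lossBlocks K x ρ (k + 1) i.succ i'.succ
      = ∑ r ∈ range (K + 1), ∑ s ∈ range (K + 1),
        (((s : ℝ) * x ^ (k + 1) * (1 - x) ^ (r + s - 1) * krausCoef k r s i * krausCoef k r s i' : ℝ) : ℂ) *
          rhoE ρ (k + r + s) ((i : ℕ) + s) ((i' : ℕ) + s) := by
  rw [loss_apply_E, Finset.mul_sum]
  apply Finset.sum_congr rfl
  intro r _
  rw [Finset.mul_sum]
  apply sum_shift
  · rw [rhoE_of_supp hsupp (by omega)]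
    simp
  · simp
  intro s _
  have hidx : k + 1 + r + s = k + r + (s + 1) := by omega
  have hz : rhoE ρ (k + 1 + r + s) ((i.succ : ℕ) + s) ((i'.succ : ℕ) + s)
      = rhoE ρ (k + r + (s + 1)) ((i : ℕ) + (s + 1)) ((i' : ℕ) + (s + 1)) := by
    rw [hidx, Fin.val_succ, Fin.val_succ, show (i : ℕ) + 1 + s = (i : ℕ) + (s + 1) by omega,
      show (i' : ℕ) + 1 + s = (i' : ℕ) + (s + 1) by omega]
  rw [hz, ← mul_assoc, ← Complex.ofReal_mul]
  congr 2
  rw [krausCoef_succ, krausCoef_succ, krausCoef_eq, krausCoef_eq]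
  have e1 := cf_shift_two (k - i) r i s
  have e2 := cf_shift_two (k - i') r i' s
  have hr : Real.sqrt ((s : ℝ) + 1) * Real.sqrt ((s : ℝ) + 1) = (s : ℝ) + 1 :=
    Real.mul_self_sqrt (by positivity)
  rw [show r + (s + 1) - 1 = r + s by omega]
  push_cast
  calc _ = x ^ (k + 1) * (1 - x) ^ (r + s) * (Real.sqrt ((i : ℝ) + 1) * cf (k - i) r (i + 1) s)
          * (Real.sqrt ((i' : ℝ) + 1) * cf (k - i') r (i' + 1) s) := by ring
    _ = x ^ (k + 1) * (1 - x) ^ (r + s) * (Real.sqrt ((s : ℝ) + 1) * cf (k - i) r i (s + 1))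
          * (Real.sqrt ((s : ℝ) + 1) * cf (k - i') r i' (s + 1)) := by
        have e1' : Real.sqrt ((i : ℝ) + 1) * cf (k - i) r (i + 1) s = Real.sqrt ((s : ℝ) + 1) * cf (k - i) r i (s + 1) := e1
        have e2' : Real.sqrt ((i' : ℝ) + 1) * cf (k - i') r (i' + 1) s = Real.sqrt ((s : ℝ) + 1) * cf (k - i') r i' (s + 1) := e2
        rw [e1', e2']
    _ = x ^ (k + 1) * (1 - x) ^ (r + s) * (Real.sqrt ((s : ℝ) + 1) * Real.sqrt ((s : ℝ) + 1))
          * cf (k - i) r i (s + 1) * cf (k - i') r i' (s + 1) := by ring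
    _ = _ := by rw [hr]; ring

/-- The generator identity, `dσ_k/dx = (k σ_k - Λ(σ_{k+1})) / x`, entrywise.
Paper proof: `d/dx [x^k (1-x)^(r+s)] = (k/x) x^k (1-x)^(r+s) - (r+s) x^k (1-x)^(r+s-1)`, and in
`Λ(σ_{k+1})` put `r = r'+1` (from `a₁`), `s = s'+1` (from `a₂`), with
`√((k+1-i)(k+1-i')) c_{k+1,r',s}(i) c_{k+1,r',s}(i') = r c_{k,r,s}(i) c_{k,r,s}(i')` and
`√((i+1)(i'+1)) c_{k+1,r,s'}(i+1) c_{k+1,r,s'}(i'+1) = s c_{k,r,s}(i) c_{k,r,s}(i')`
(`(a+1) C(a+1+r', r') = (r'+1) C(a+r'+1, r'+1)`). Terms with `k+r+s > K` vanish by `hsupp`. -/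
theorem loss_hasDeriv (K : ℕ) {x : ℝ} (hx : 0 < x) {ρ : Blocks} (hsupp : ∀ k, K < k → ρ k = 0)
    (k : ℕ) (i i' : Fin (k + 1)) :
    HasDerivAt (fun t : ℝ => lossBlocks K t ρ k i i')
      ((((k : ℂ) * lossBlocks K x ρ k i i' - lamMap k (lossBlocks K x ρ (k + 1)) i i') / (x : ℂ))) x := by
  have hterm : ∀ r s : ℕ, HasDerivAt
      (fun t : ℝ => ((t ^ k * (1 - t) ^ (r + s) * krausCoef k r s i * krausCoef k r s i' : ℝ) : ℂ) *
        rhoE ρ (k + r + s) ((i : ℕ) + s) ((i' : ℕ) + s))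
      ((((((k : ℝ) * x ^ (k - 1) * 1) * (1 - x) ^ (r + s)
          + x ^ k * (((r + s : ℕ) : ℝ) * (1 - x) ^ (r + s - 1) * (-1)))
          * krausCoef k r s i * krausCoef k r s i' : ℝ) : ℂ) *
        rhoE ρ (k + r + s) ((i : ℕ) + s) ((i' : ℕ) + s)) x := by
    intro r s
    have h1 : HasDerivAt (fun t : ℝ => t ^ k) ((k : ℝ) * x ^ (k - 1) * 1) x :=
      (hasDerivAt_id x).pow k
    have h2 : HasDerivAt (fun t : ℝ => (1 - t) ^ (r + s))
        (((r + s : ℕ) : ℝ) * (1 - x) ^ (r + s - 1) * (-1)) x := by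
      have h3 : HasDerivAt (fun t : ℝ => 1 - t) (-1) x := by
        simpa using (hasDerivAt_id x).const_sub 1
      exact h3.pow (r + s)
    have h4 := ((h1.mul h2).mul_const (krausCoef k r s i)).mul_const (krausCoef k r s i')
    have h5 := (h4.ofReal_comp).mul_const (rhoE ρ (k + r + s) ((i : ℕ) + s) ((i' : ℕ) + s))
    exact h5
  have hsum := HasDerivAt.fun_sum (u := range (K + 1)) (fun r _ =>
    HasDerivAt.fun_sum (u := range (K + 1)) (fun s _ => hterm r s))
  have hfun : (fun t : ℝ => lossBlocks K t ρ k i i') = fun t : ℝ =>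
      ∑ r ∈ range (K + 1), ∑ s ∈ range (K + 1),
        ((t ^ k * (1 - t) ^ (r + s) * krausCoef k r s i * krausCoef k r s i' : ℝ) : ℂ) *
          rhoE ρ (k + r + s) ((i : ℕ) + s) ((i' : ℕ) + s) := by
    funext t
    rw [loss_apply_E]
  rw [hfun]
  refine hsum.congr_deriv ?_
  symm
  have hxC : (x : ℂ) ≠ 0 := by exact_mod_cast hx.ne'
  rw [div_eq_iff hxC, lam_apply, lam_one_eq K x hsupp, lam_two_eq K x hsupp, loss_apply_E,
    Finset.mul_sum, Finset.sum_mul, ← Finset.sum_add_distrib, ← Finset.sum_sub_distrib]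
  apply Finset.sum_congr rfl
  intro r _
  rw [Finset.mul_sum, Finset.sum_mul, ← Finset.sum_add_distrib, ← Finset.sum_sub_distrib]
  apply Finset.sum_congr rfl
  intro s _
  have hpow : (k : ℝ) * x ^ (k - 1) * x = (k : ℝ) * x ^ k := by
    rcases Nat.eq_zero_or_pos k with rfl | hk
    · simp
    · rw [mul_assoc, ← pow_succ, Nat.sub_add_cancel hk]
  have hreal : (k : ℝ) * (x ^ k * (1 - x) ^ (r + s) * krausCoef k r s i * krausCoef k r s i')
      - ((r : ℝ) * x ^ (k + 1) * (1 - x) ^ (r + s - 1) * krausCoef k r s i * krausCoef k r s i'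
        + (s : ℝ) * x ^ (k + 1) * (1 - x) ^ (r + s - 1) * krausCoef k r s i * krausCoef k r s i')
      = ((((k : ℝ) * x ^ (k - 1) * 1) * (1 - x) ^ (r + s)
          + x ^ k * (((r + s : ℕ) : ℝ) * (1 - x) ^ (r + s - 1) * (-1)))
          * krausCoef k r s i * krausCoef k r s i') * x := by
    push_cast
    have : (k : ℝ) * x ^ (k - 1) * 1 * (1 - x) ^ (r + s) * x = (k : ℝ) * x ^ k * (1 - x) ^ (r + s) := by
      rw [← hpow]
      ring
    have h2 : ((((k : ℝ) * x ^ (k - 1) * 1) * (1 - x) ^ (r + s)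
          + x ^ k * (((r : ℝ) + (s : ℝ)) * (1 - x) ^ (r + s - 1) * (-1)))
          * krausCoef k r s i * krausCoef k r s i') * x =
        ((k : ℝ) * x ^ (k - 1) * 1 * (1 - x) ^ (r + s) * x) * krausCoef k r s i * krausCoef k r s i'
        - ((r : ℝ) + (s : ℝ)) * (x ^ k * x) * (1 - x) ^ (r + s - 1) * krausCoef k r s i * krausCoef k r s i' := by
      ring
    rw [h2, this, pow_succ]
    ring
  have hC := congrArg (fun t : ℝ => (t : ℂ) * rhoE ρ (k + r + s) ((i : ℕ) + s) ((i' : ℕ) + s)) hreal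
  rw [Complex.ofReal_sub, Complex.ofReal_add, Complex.ofReal_mul _ (x : ℝ),
    Complex.ofReal_mul (k : ℝ)] at hC
  simp only [Complex.ofReal_natCast] at hC
  linear_combination hC

theorem hasDerivAt_trace {d : ℕ} (A : ℝ → Matrix (Fin d) (Fin d) ℂ)
    (A' : Matrix (Fin d) (Fin d) ℂ) {t : ℝ}
    (h : ∀ i j, HasDerivAt (fun s => A s i j) (A' i j) t) :
    HasDerivAt (fun s => (trace (A s)).re) (trace A').re t := by
  have h1 : HasDerivAt (fun s => trace (A s)) (trace A') t := by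
    simp only [Matrix.trace, Matrix.diag]
    exact HasDerivAt.fun_sum (fun i _ => h i i)
  exact Complex.reCLM.hasFDerivAt.comp_hasDerivAt t h1

/-- The total trace has zero derivative on `x > 0`. -/
theorem total_trace_hasDeriv (K : ℕ) {x : ℝ} (hx : 0 < x) {ρ : Blocks} (hsupp : ∀ k, K < k → ρ k = 0) :
    HasDerivAt (fun t : ℝ => ∑ k ∈ range (K + 1), (trace (lossBlocks K t ρ k)).re) 0 x := by
  have hk : ∀ k ∈ range (K + 1), HasDerivAt (fun t : ℝ => (trace (lossBlocks K t ρ k)).re)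
      (trace ((x : ℂ)⁻¹ • ((k : ℂ) • lossBlocks K x ρ k - lamMap k (lossBlocks K x ρ (k + 1))))).re x := by
    intro k _
    apply hasDerivAt_trace
    intro i j
    have := loss_hasDeriv K hx hsupp k i j
    convert this using 1
    simp [Matrix.sub_apply, Matrix.smul_apply, div_eq_inv_mul]
  have h := HasDerivAt.fun_sum hk
  refine h.congr_deriv ?_
  have hterm : ∀ k ∈ range (K + 1),
      (trace ((x : ℂ)⁻¹ • ((k : ℂ) • lossBlocks K x ρ k - lamMap k (lossBlocks K x ρ (k + 1))))).re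
        = x⁻¹ * ((k : ℝ) * (trace (lossBlocks K x ρ k)).re
          - ((k + 1 : ℕ) : ℝ) * (trace (lossBlocks K x ρ (k + 1))).re) := by
    intro k _
    rw [trace_smul, trace_sub, trace_smul, trace_lamMap]
    have e1 : (x : ℂ)⁻¹ • ((k : ℂ) • trace (lossBlocks K x ρ k)
        - ((k : ℂ) + 1) * trace (lossBlocks K x ρ (k + 1)))
        = ((x⁻¹ : ℝ) : ℂ) * ((((k : ℝ) : ℂ) * trace (lossBlocks K x ρ k))
        - (((k + 1 : ℕ) : ℝ) : ℂ) * trace (lossBlocks K x ρ (k + 1))) := by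
      simp [smul_eq_mul]
    rw [e1, Complex.re_ofReal_mul, Complex.sub_re, Complex.re_ofReal_mul, Complex.re_ofReal_mul]
  rw [Finset.sum_congr rfl hterm, ← Finset.mul_sum]
  have htel := Finset.sum_range_sub' (fun k : ℕ => (k : ℝ) * (trace (lossBlocks K x ρ k)).re) (K + 1)
  rw [htel, loss_support K x hsupp (k := K + 1) (by omega)]
  simp

/-- Total trace is preserved (binomial theorem, or integrate `loss_hasDeriv`; any proof). -/
theorem loss_trace (K : ℕ) {x : ℝ} (hx : 0 ≤ x) {ρ : Blocks} (hsupp : ∀ k, K < k → ρ k = 0) :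
    ∑ k ∈ range (K + 1), (trace (lossBlocks K x ρ k)).re = ∑ k ∈ range (K + 1), (trace (ρ k)).re := by
  set T : ℝ → ℝ := fun t => ∑ k ∈ range (K + 1), (trace (lossBlocks K t ρ k)).re with hT
  have hT1 : T 1 = ∑ k ∈ range (K + 1), (trace (ρ k)).re := by
    simp only [hT]
    apply Finset.sum_congr rfl
    intro k _
    rw [loss_one K hsupp k]
  have hconst : ∀ t, 0 < t → T t = T 1 := by
    intro t ht
    apply IsOpen.is_const_of_deriv_eq_zero (s := Set.Ioi (0 : ℝ)) isOpen_Ioi isPreconnected_Ioi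
    · intro z hz
      exact (total_trace_hasDeriv K hz hsupp).differentiableAt.differentiableWithinAt
    · intro z hz
      exact (total_trace_hasDeriv K hz hsupp).deriv
    · exact ht
    · exact Set.mem_Ioi.2 one_pos
  have hcont : Continuous T := by
    apply continuous_finsetSum
    intro k _
    exact Complex.continuous_re.comp ((loss_continuous K ρ k).matrix_trace)
  change T x = _
  rw [← hT1]
  rcases hx.eq_or_lt with rfl | hpos
  · have h1 : Tendsto T (𝓝[>] 0) (𝓝 (T 0)) := hcont.continuousWithinAt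
    have h2 : Tendsto T (𝓝[>] 0) (𝓝 (T 1)) := by
      apply tendsto_const_nhds.congr'
      filter_upwards [self_mem_nhdsWithin] with t ht
      exact (hconst t ht).symm
    exact tendsto_nhds_unique h1 h2
  · exact hconst x hpos

end

end Vale.Agent.Lib.P369G
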