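import Vale.Agent.Lib.P369G.WBound
import Vale.Agent.Lib.P369G.Flow
import Vale.Agent.Lib.P358.EntKlein
import Vale.Agent.Lib.P358.EntCont

/-! # P369: integrating the production bound along the loss path, full rank inputs -/

namespace Vale.Agent.Lib.P369G

open Matrix Finset Filter Topology Set
open scoped ComplexOrder

theorem totalEnt_nonneg (K : ℕ) (σ : Blocks) (hpsd : ∀ k, (σ k).PosSemidef)
    (htr : ∑ k ∈ range (K + 1), (trace (σ k)).re = 1) : 0 ≤ totalEnt K σ := by
  have htrnn : ∀ k, 0 ≤ (trace (σ k)).re := by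
    intro k
    rw [(hpsd k).1.trace_eq_sum_eigenvalues]
    simp only [Complex.re_sum]
    exact Finset.sum_nonneg (fun i _ => (hpsd k).eigenvalues_nonneg i)
  unfold totalEnt
  apply Finset.sum_nonneg
  intro k hk
  unfold vnEnt
  rw [dif_pos (hpsd k).1]
  apply Finset.sum_nonneg
  intro i _
  apply Real.negMulLog_nonneg ((hpsd k).eigenvalues_nonneg i)
  have h1 : (hpsd k).1.eigenvalues i ≤ (trace (σ k)).re := by
    rw [(hpsd k).1.trace_eq_sum_eigenvalues]
    simp only [Complex.re_sum]
    exact Finset.single_le_sum (f := fun j => (hpsd k).1.eigenvalues j)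
      (fun j _ => (hpsd k).eigenvalues_nonneg j) (Finset.mem_univ i)
  have h2 : (trace (σ k)).re ≤ ∑ k ∈ range (K + 1), (trace (σ k)).re :=
    Finset.single_le_sum (f := fun m => (trace (σ m)).re) (fun m _ => htrnn m) hk
  linarith

theorem vnEnt_continuousOn (K : ℕ) {ρ : Blocks} (hpsd : ∀ k, (ρ k).PosSemidef) (k : ℕ) :
    ContinuousOn (fun t : ℝ => vnEnt (lossBlocks K t ρ k)) (Icc 0 1) := by
  rw [continuousOn_iff_continuous_domRestrict, continuous_iff_continuousAt]
  intro t₀
  have h := Vale.Agent.Lib.P358.tendsto_ent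
    (A := fun i : Icc (0 : ℝ) 1 => lossBlocks K (i : ℝ) ρ k)
    (A₀ := lossBlocks K (t₀ : ℝ) ρ k)
    (l := 𝓝 t₀)
    (fun i => loss_posSemidef K i.2.1 i.2.2 hpsd k)
    (loss_posSemidef K t₀.2.1 t₀.2.2 hpsd k)
    (((loss_continuous K ρ k).comp continuous_subtype_val).tendsto t₀)
  exact h

theorem totalEnt_continuousOn (K : ℕ) {ρ : Blocks} (hpsd : ∀ k, (ρ k).PosSemidef) :
    ContinuousOn (fun t : ℝ => totalEnt K (lossBlocks K t ρ)) (Icc 0 1) := by
  unfold totalEnt
  exact continuousOn_finsetSum _ (fun k _ => vnEnt_continuousOn K hpsd k)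

theorem hasDerivAt_trace_mul {d : ℕ} (A : ℝ → Matrix (Fin d) (Fin d) ℂ)
    (A' M : Matrix (Fin d) (Fin d) ℂ) {t : ℝ}
    (h : ∀ i j, HasDerivAt (fun s => A s i j) (A' i j) t) :
    HasDerivAt (fun s => (trace (A s * M)).re) (trace (A' * M)).re t := by
  have h1 : HasDerivAt (fun s => trace (A s * M)) (trace (A' * M)) t := by
    simp only [Matrix.trace, Matrix.diag, Matrix.mul_apply]
    apply HasDerivAt.fun_sum
    intro i _
    apply HasDerivAt.fun_sum
    intro j _
    exact (h i j).mul_const _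
  exact Complex.reCLM.hasFDerivAt.comp_hasDerivAt t h1

/-- The linear functional `L(z) = ∑_k re tr (σ_k(z) log σ_k(t))` has derivative `wFun(σ(t)) / t` at `t`. -/
theorem hasDerivAt_cross (K : ℕ) {ρ : Blocks} (hsupp : ∀ k, K < k → ρ k = 0) {t : ℝ} (ht : 0 < t)
    (M : (k : ℕ) → Matrix (Fin (k + 1)) (Fin (k + 1)) ℂ)
    (hM : ∀ k, M k = Vale.Agent.Lib.P358.logm (lossBlocks K t ρ k)) :
    HasDerivAt (fun z : ℝ => ∑ k ∈ range (K + 1), (trace (lossBlocks K z ρ k * M k)).re)
      (wFun K (lossBlocks K t ρ) / t) t := by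
  have hk : ∀ k ∈ range (K + 1), HasDerivAt (fun z : ℝ => (trace (lossBlocks K z ρ k * M k)).re)
      (trace (((t : ℂ)⁻¹ • ((k : ℂ) • lossBlocks K t ρ k - lamMap k (lossBlocks K t ρ (k + 1)))) * M k)).re t := by
    intro k _
    apply hasDerivAt_trace_mul
    intro i j
    have := loss_hasDeriv K ht hsupp k i j
    convert this using 1
    simp [Matrix.sub_apply, Matrix.smul_apply, div_eq_inv_mul]
  have h := HasDerivAt.fun_sum hk
  have heq : wFun K (lossBlocks K t ρ) / t = ∑ k ∈ range (K + 1),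
      (trace (((t : ℂ)⁻¹ • ((k : ℂ) • lossBlocks K t ρ k - lamMap k (lossBlocks K t ρ (k + 1)))) * M k)).re := by
    unfold wFun
    rw [Finset.sum_div]
    apply Finset.sum_congr rfl
    intro k _
    rw [Matrix.smul_mul, Matrix.sub_mul, Matrix.smul_mul, trace_smul, trace_sub, trace_smul, ← hM k]
    have e1 : ((t : ℂ)⁻¹ • ((k : ℂ) • trace (lossBlocks K t ρ k * M k)
        - trace (lamMap k (lossBlocks K t ρ (k + 1)) * M k)))
        = (((t⁻¹ : ℝ)) : ℂ) * (((k : ℝ) : ℂ) * trace (lossBlocks K t ρ k * M k)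
        - trace (lamMap k (lossBlocks K t ρ (k + 1)) * M k)) := by
      simp [smul_eq_mul]
    rw [e1, Complex.re_ofReal_mul, Complex.sub_re, Complex.re_ofReal_mul, div_eq_inv_mul]
  rw [heq]
  exact h
theorem main_pd (K : ℕ) (ρ : Blocks) (hpd : ∀ k, k ≤ K → (ρ k).PosDef) (hpsd : ∀ k, (ρ k).PosSemidef)
    (hsupp : ∀ k, K < k → ρ k = 0) (htr : ∑ k ∈ range (K + 1), (trace (ρ k)).re = 1)
    {y : ℝ} (hy0 : 0 ≤ y) (hy : 2 * gFun y ≤ totalEnt K ρ) {x : ℝ} (hx0 : 0 < x) (hx1 : x ≤ 1) :
    2 * gFun (x * y) ≤ totalEnt K (lossBlocks K x ρ) := by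
  have hσtr : ∀ {t : ℝ}, 0 ≤ t → ∑ k ∈ range (K + 1), (trace (lossBlocks K t ρ k)).re = 1 := by
    intro t ht
    rw [loss_trace K ht hsupp, htr]
  rcases hy0.eq_or_lt with rfl | hypos
  · -- the vacuum-like case, `y = 0`
    simp only [mul_zero, gFun_zero]
    exact totalEnt_nonneg K _ (fun k => loss_posSemidef K hx0.le hx1 hpsd k) (hσtr hx0.le)
  by_contra hcon
  push Not at hcon
  set f : ℝ → ℝ := fun t => totalEnt K (lossBlocks K t ρ) with hf
  set δ : ℝ := 2 * gFun (x * y) - f x with hδ
  have hδpos : 0 < δ := by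
    simp only [hδ, hf]
    linarith
  set ε : ℝ := δ / 2 with hε
  have hεpos : 0 < ε := by positivity
  set B : ℝ → ℝ := fun t => 2 * gFun (t * y) - δ + ε * (t - x) with hB
  set B' : ℝ → ℝ := fun t => 2 * (Real.log (1 + 1 / (t * y)) * y) + ε with hB'
  set f' : ℝ → ℝ := fun t => -(wFun K (lossBlocks K t ρ) / t) with hf'
  have hfc : ContinuousOn f (Icc x 1) :=
    (totalEnt_continuousOn K hpsd).mono (fun t ht => ⟨hx0.le.trans ht.1, ht.2⟩)
  have hσpd : ∀ {t : ℝ}, 0 < t → t ≤ 1 → ∀ k, k ≤ K → (lossBlocks K t ρ k).PosDef :=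
    fun ht ht1 k hk => loss_posDef K ht ht1 hpsd (hpd k hk)
  -- the right Dini estimate from Klein's inequality
  have hDini : ∀ t ∈ Ico x 1, ∀ r, f' t < r → ∃ᶠ z in 𝓝[>] t, slope f t z < r := by
    intro t ht r hr
    have ht0 : 0 < t := hx0.trans_le ht.1
    set M : (k : ℕ) → Matrix (Fin (k + 1)) (Fin (k + 1)) ℂ :=
      fun k => Vale.Agent.Lib.P358.logm (lossBlocks K t ρ k) with hMdef
    set L : ℝ → ℝ := fun z => ∑ k ∈ range (K + 1), (trace (lossBlocks K z ρ k * M k)).re with hL
    have hLd : HasDerivAt L (wFun K (lossBlocks K t ρ) / t) t :=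
      hasDerivAt_cross K hsupp ht0 M (fun _ => rfl)
    have hLs : Tendsto (slope L t) (𝓝[>] t) (𝓝 (wFun K (lossBlocks K t ρ) / t)) :=
      (hasDerivAt_iff_tendsto_slope.1 hLd).mono_left
        (nhdsWithin_mono t (fun z (hz : t < z) => hz.ne'))
    have hev1 : ∀ᶠ z in 𝓝[>] t, -r < slope L t z := by
      apply hLs.eventually (lt_mem_nhds _)
      simp only [hf'] at hr
      linarith
    have hev2 : ∀ᶠ z in 𝓝[>] t, z ∈ Ioc t 1 := Ioc_mem_nhdsGT ht.2
    apply Eventually.frequently
    filter_upwards [hev1, hev2] with z hz1 hz2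
    have hzt : 0 < z - t := sub_pos.2 hz2.1
    -- Klein
    have hL_t : L t = - f t := by
      simp only [hL, hf, totalEnt, hMdef]
      rw [← Finset.sum_neg_distrib]
      apply Finset.sum_congr rfl
      intro k hk
      have hk' : k ≤ K := by
        have := mem_range.1 hk
        omega
      have := Vale.Agent.Lib.P358.ent_eq_neg_trace_mul_logm (hσpd ht0 ht.2.le k hk').1
      have h2 : Vale.Agent.Lib.P358.ent (lossBlocks K t ρ k) = vnEnt (lossBlocks K t ρ k) := rfl
      rw [h2] at this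
      linarith
    have hL_z : f z ≤ - L z := by
      have hsum : ∀ k ∈ range (K + 1), vnEnt (lossBlocks K z ρ k) ≤
          -(trace (lossBlocks K z ρ k * M k)).re + (trace (lossBlocks K t ρ k)).re
            - (trace (lossBlocks K z ρ k)).re := by
        intro k hk
        have hk' : k ≤ K := by
          have := mem_range.1 hk
          omega
        exact Vale.Agent.Lib.P358.ent_le_cross
          (loss_posSemidef K (ht0.le.trans hz2.1.le) hz2.2 hpsd k) (hσpd ht0 ht.2.le k hk')
      have h := Finset.sum_le_sum hsum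
      rw [Finset.sum_sub_distrib, Finset.sum_add_distrib, Finset.sum_neg_distrib,
        hσtr ht0.le, hσtr (ht0.le.trans hz2.1.le)] at h
      simp only [hf, totalEnt, hL]
      linarith
    have hs1 : slope f t z = (f z - f t) / (z - t) := by
      rw [slope_def_field]
    have hs2 : slope L t z = (L z - L t) / (z - t) := by
      rw [slope_def_field]
    have h3 : slope f t z ≤ - slope L t z := by
      rw [hs1, hs2, ← neg_div]
      apply div_le_div_of_nonneg_right _ hzt.le
      linarith
    linarith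
  have hBd : ∀ t ∈ Ico x 1, HasDerivWithinAt B (B' t) (Ici t) t := by
    intro t ht
    have ht0 : 0 < t := hx0.trans_le ht.1
    have h1 : HasDerivAt (fun s : ℝ => s * y) y t := by
      simpa using (hasDerivAt_id t).mul_const y
    have h2 : HasDerivAt (fun s : ℝ => gFun (s * y)) (Real.log (1 + 1 / (t * y)) * y) t :=
      HasDerivAt.comp (h₂ := gFun) t (gFun_hasDerivAt (mul_pos ht0 hypos)) h1
    have h3 : HasDerivAt (fun s : ℝ => ε * (s - x)) ε t := by
      simpa using ((hasDerivAt_id t).sub_const x).const_mul ε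
    have h4 := ((h2.const_mul 2).sub_const δ).add h3
    exact h4.hasDerivWithinAt
  have hBc : ContinuousOn B (Icc x 1) := by
    apply Continuous.continuousOn
    have := gFun_continuous
    simp only [hB]
    fun_prop
  have hbound : ∀ t ∈ Ico x 1, f t = B t → f' t < B' t := by
    intro t ht hft
    have ht0 : 0 < t := hx0.trans_le ht.1
    have hty : 0 < t * y := mul_pos ht0 hypos
    have hw := wFun_bound K (lossBlocks K t ρ) (hσpd ht0 ht.2.le)
      (fun k hk => loss_support K t hsupp hk) (hσtr ht0.le) hty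
    have hlt : totalEnt K (lossBlocks K t ρ) - 2 * gFun (t * y) < 0 := by
      have h5 : f t = 2 * gFun (t * y) - δ + ε * (t - x) := hft
      have h6 : ε * (t - x) ≤ ε * 1 := by
        apply mul_le_mul_of_nonneg_left _ hεpos.le
        linarith [ht.2, hx0]
      simp only [hf] at h5
      linarith [hε]
    have hk := kappa_nonneg hty
    have hw2 : -2 * psiFun (t * y) ≤ wFun K (lossBlocks K t ρ) := by
      have := mul_nonpos_of_nonneg_of_nonpos hk hlt.le
      linarith
    have hpsi : psiFun (t * y) / t = Real.log (1 + 1 / (t * y)) * y := by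
      unfold psiFun
      field_simp
    have h7 : - (wFun K (lossBlocks K t ρ) / t) ≤ 2 * (psiFun (t * y) / t) := by
      rw [← neg_div, mul_div_assoc', div_le_div_iff_of_pos_right ht0]
      linarith
    simp only [hf', hB']
    rw [hpsi] at h7
    linarith
  have hstart : f x ≤ B x := by
    simp only [hB, sub_self, mul_zero, add_zero]
    simp only [hδ]
    linarith
  have hend := image_le_of_liminf_slope_right_lt_deriv_boundary' hfc hDini hstart hBc hBd hbound
    (right_mem_Icc.2 hx1)
  have hf1 : f 1 = totalEnt K ρ := by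
    simp only [hf, totalEnt]
    apply Finset.sum_congr rfl
    intro k _
    rw [loss_one K hsupp k]
  have hB1 : B 1 = 2 * gFun y - δ + ε * (1 - x) := by
    simp only [hB, one_mul]
  rw [hf1, hB1] at hend
  have h8 : ε * (1 - x) ≤ ε * 1 := by
    apply mul_le_mul_of_nonneg_left _ hεpos.le
    linarith
  have h9 : ε < δ := by
    simp only [hε]
    linarith
  linarith

end Vale.Agent.Lib.P369G
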