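import Vale.Agent.Lib.P369G.ProofDefs

/-! # P369: ladder matrices -/

namespace Vale.Agent.Lib.P369G

open Matrix Finset

private lemma sqrt_mul_self_complex {x : ℝ} (hx : 0 ≤ x) :
    ((Real.sqrt x : ℝ) : ℂ) * ((Real.sqrt x : ℝ) : ℂ) = (x : ℂ) := by
  rw [← Complex.ofReal_mul, Real.mul_self_sqrt hx]

theorem ladder_down (k : ℕ) :
    (aOne k)ᴴ * aOne k + (aTwo k)ᴴ * aTwo k = ((k : ℂ) + 1) • (1 : Matrix (Fin (k + 2)) (Fin (k + 2)) ℂ) := by
  ext x y
  simp only [Matrix.add_apply, Matrix.mul_apply, Matrix.conjTranspose_apply, aOne, aTwo,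
    Matrix.of_apply, Matrix.smul_apply, Matrix.one_apply, smul_eq_mul]
  by_cases hxy : x = y
  · subst hxy
    simp only [if_true, mul_one]
    have h1 : ∑ i : Fin (k + 1), star (if (x : ℕ) = (i : ℕ) then ((Real.sqrt ((k : ℝ) + 1 - (i : ℕ)) : ℝ) : ℂ) else 0) *
        (if (x : ℕ) = (i : ℕ) then ((Real.sqrt ((k : ℝ) + 1 - (i : ℕ)) : ℝ) : ℂ) else 0)
        = (k : ℂ) + 1 - (x : ℕ) := by
      induction x using Fin.lastCases with
      | last =>
        have : ∀ i : Fin (k + 1), ¬ (((Fin.last (k + 1) : Fin (k + 2)) : ℕ) = (i : ℕ)) := by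
          intro i
          have := i.isLt
          simp only [Fin.val_last]
          omega
        rw [sum_eq_zero]
        · simp
        · intro i _
          rw [if_neg (this i)]
          simp
      | cast x₀ =>
        rw [sum_eq_single x₀]
        · simp only [Fin.val_castSucc, if_true]
          have hnn : (0 : ℝ) ≤ (k : ℝ) + 1 - (x₀ : ℕ) := by
            have : ((x₀ : ℕ) : ℝ) ≤ k := by exact_mod_cast Nat.lt_succ_iff.mp x₀.isLt
            linarith
          rw [Complex.star_def, Complex.conj_ofReal, sqrt_mul_self_complex hnn]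
          push_cast
          ring
        · intro i _ hi
          have : ¬ (((x₀.castSucc : Fin (k + 2)) : ℕ) = (i : ℕ)) := by
            simp only [Fin.val_castSucc]
            intro h
            exact hi (Fin.ext h.symm)
          rw [if_neg this]
          simp
        · simp
    have h2 : ∑ i : Fin (k + 1), star (if (x : ℕ) = (i : ℕ) + 1 then ((Real.sqrt ((i : ℝ) + 1) : ℝ) : ℂ) else 0) *
        (if (x : ℕ) = (i : ℕ) + 1 then ((Real.sqrt ((i : ℝ) + 1) : ℝ) : ℂ) else 0)
        = (x : ℕ) := by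
      induction x using Fin.cases with
      | zero =>
        simp
      | succ x₀ =>
        rw [sum_eq_single x₀]
        · simp only [Fin.val_succ, if_true]
          have hnn : (0 : ℝ) ≤ ((x₀ : ℕ) : ℝ) + 1 := by positivity
          rw [Complex.star_def, Complex.conj_ofReal, sqrt_mul_self_complex hnn]
          push_cast
          ring
        · intro i _ hi
          have : ¬ (((x₀.succ : Fin (k + 2)) : ℕ) = (i : ℕ) + 1) := by
            simp only [Fin.val_succ]
            intro h
            exact hi (Fin.ext (by omega))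
          rw [if_neg this]
          simp
        · simp
    rw [h1, h2]
    ring
  · have hne : (x : ℕ) ≠ (y : ℕ) := fun h => hxy (Fin.ext h)
    rw [if_neg hxy, mul_zero]
    rw [sum_eq_zero, sum_eq_zero, add_zero]
    · intro i _
      by_cases h1 : (x : ℕ) = (i : ℕ) + 1
      · have h2 : ¬ ((y : ℕ) = (i : ℕ) + 1) := by omega
        simp [h2]
      · simp [h1]
    · intro i _
      by_cases h1 : (x : ℕ) = (i : ℕ)
      · have h2 : ¬ ((y : ℕ) = (i : ℕ)) := by omega
        simp [h2]
      · simp [h1]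

theorem ladder_up (k : ℕ) :
    aOne k * (aOne k)ᴴ + aTwo k * (aTwo k)ᴴ = ((k : ℂ) + 2) • (1 : Matrix (Fin (k + 1)) (Fin (k + 1)) ℂ) := by
  ext x y
  simp only [Matrix.add_apply, Matrix.mul_apply, Matrix.conjTranspose_apply, aOne, aTwo,
    Matrix.of_apply, Matrix.smul_apply, Matrix.one_apply, smul_eq_mul]
  by_cases hxy : x = y
  · subst hxy
    simp only [if_true, mul_one]
    have h1 : ∑ j : Fin (k + 2), (if (j : ℕ) = (x : ℕ) then ((Real.sqrt ((k : ℝ) + 1 - (x : ℕ)) : ℝ) : ℂ) else 0) *
        star (if (j : ℕ) = (x : ℕ) then ((Real.sqrt ((k : ℝ) + 1 - (x : ℕ)) : ℝ) : ℂ) else 0)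
        = (k : ℂ) + 1 - (x : ℕ) := by
      rw [sum_eq_single x.castSucc]
      · simp only [Fin.val_castSucc, if_true]
        have hnn : (0 : ℝ) ≤ (k : ℝ) + 1 - (x : ℕ) := by
          have : ((x : ℕ) : ℝ) ≤ k := by exact_mod_cast Nat.lt_succ_iff.mp x.isLt
          linarith
        rw [Complex.star_def, Complex.conj_ofReal, sqrt_mul_self_complex hnn]
        push_cast
        ring
      · intro j _ hj
        have : ¬ ((j : ℕ) = (x : ℕ)) := by
          intro h
          apply hj
          exact Fin.ext (by simpa using h)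
        simp [this]
      · simp
    have h2 : ∑ j : Fin (k + 2), (if (j : ℕ) = (x : ℕ) + 1 then ((Real.sqrt (((x : ℕ) : ℝ) + 1) : ℝ) : ℂ) else 0) *
        star (if (j : ℕ) = (x : ℕ) + 1 then ((Real.sqrt (((x : ℕ) : ℝ) + 1) : ℝ) : ℂ) else 0)
        = (x : ℕ) + 1 := by
      rw [sum_eq_single x.succ]
      · simp only [Fin.val_succ, if_true]
        have hnn : (0 : ℝ) ≤ ((x : ℕ) : ℝ) + 1 := by positivity
        rw [Complex.star_def, Complex.conj_ofReal, sqrt_mul_self_complex hnn]
        push_cast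
        ring
      · intro j _ hj
        have : ¬ ((j : ℕ) = (x : ℕ) + 1) := by
          intro h
          apply hj
          exact Fin.ext (by simpa using h)
        simp [this]
      · simp
    rw [h1, h2]
    ring
  · have hne : (x : ℕ) ≠ (y : ℕ) := fun h => hxy (Fin.ext h)
    rw [if_neg hxy, mul_zero]
    rw [sum_eq_zero, sum_eq_zero, add_zero]
    · intro j _
      by_cases h1 : (j : ℕ) = (x : ℕ) + 1
      · have h2 : ¬ ((j : ℕ) = (y : ℕ) + 1) := by omega
        simp [h2]
      · simp [h1]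
    · intro j _
      by_cases h1 : (j : ℕ) = (x : ℕ)
      · have h2 : ¬ ((j : ℕ) = (y : ℕ)) := by omega
        simp [h2]
      · simp [h1]

theorem trace_lamMap (k : ℕ) (X : Matrix (Fin (k + 2)) (Fin (k + 2)) ℂ) :
    trace (lamMap k X) = ((k : ℂ) + 1) * trace X := by
  unfold lamMap
  rw [trace_add]
  rw [Matrix.trace_mul_comm (aOne k * X), Matrix.trace_mul_comm (aTwo k * X)]
  rw [← Matrix.mul_assoc, ← Matrix.mul_assoc, ← trace_add, ← Matrix.add_mul, ladder_down]
  simp [Matrix.trace_smul]

end Vale.Agent.Lib.P369G
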