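import Vale.Agent.Lib.P369G.Dini

/-! # P369: all gauge-invariant inputs with finitely many photons -/

namespace Vale.Agent.Lib.P369G

open Matrix Finset Filter Topology Set
open scoped ComplexOrder

noncomputable section

theorem vnEnt_continuousOn_of {d : ℕ} (s : Set ℝ) (A : ℝ → Matrix (Fin d) (Fin d) ℂ)
    (hc : Continuous A) (hpsd : ∀ t ∈ s, (A t).PosSemidef) :
    ContinuousOn (fun t => vnEnt (A t)) s := by
  rw [continuousOn_iff_continuous_domRestrict, continuous_iff_continuousAt]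
  intro t₀
  have h := Vale.Agent.Lib.P358.tendsto_ent
    (A := fun i : s => A (i : ℝ))
    (A₀ := A (t₀ : ℝ))
    (l := 𝓝 t₀)
    (fun i => hpsd i i.2)
    (hpsd t₀ t₀.2)
    ((hc.comp continuous_subtype_val).tendsto t₀)
  exact h

/-- The normalisation of the maximally mixed state on at most `K` photons. -/
def dimK (K : ℕ) : ℝ := ∑ k ∈ range (K + 1), ((k : ℝ) + 1)

theorem dimK_pos (K : ℕ) : 0 < dimK K := by
  apply Finset.sum_pos
  · intro k _
    positivity
  · simp

/-- The maximally mixed state on at most `K` photons. -/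
def mixedBlocks (K : ℕ) : Blocks := fun k => if k ≤ K then ((dimK K)⁻¹ : ℝ) • (1 : Matrix _ _ ℂ) else 0

theorem mixed_posDef (K : ℕ) {k : ℕ} (hk : k ≤ K) : (mixedBlocks K k).PosDef := by
  simp only [mixedBlocks, if_pos hk]
  exact Matrix.PosDef.one.smul (inv_pos.2 (dimK_pos K))

theorem mixed_posSemidef (K k : ℕ) : (mixedBlocks K k).PosSemidef := by
  by_cases hk : k ≤ K
  · exact (mixed_posDef K hk).posSemidef
  · simp only [mixedBlocks, if_neg hk]
    exact Matrix.PosSemidef.zero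

theorem mixed_trace (K : ℕ) : ∑ k ∈ range (K + 1), (trace (mixedBlocks K k)).re = 1 := by
  have hk : ∀ k ∈ range (K + 1), (trace (mixedBlocks K k)).re = (dimK K)⁻¹ * ((k : ℝ) + 1) := by
    intro k hk
    have hk' : k ≤ K := by
      have := mem_range.1 hk
      omega
    simp only [mixedBlocks, if_pos hk', trace_smul, trace_one, Fintype.card_fin]
    simp
    ring
  rw [Finset.sum_congr rfl hk, ← Finset.mul_sum]
  exact inv_mul_cancel₀ (dimK_pos K).ne'

/-- The mixture `(1-e) ρ + e (I/D)`. -/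
def mixBlocks (K : ℕ) (ρ : Blocks) (e : ℝ) : Blocks := fun m => (1 - e) • ρ m + e • mixedBlocks K m

theorem main_psd (K : ℕ) {ρ : Blocks} (h : IsGaugeState K ρ) {y : ℝ} (hy0 : 0 ≤ y)
    (hy : 2 * gFun y = totalEnt K ρ) {x : ℝ} (hx0 : 0 ≤ x) (hx1 : x ≤ 1) :
    2 * gFun (x * y) ≤ totalEnt K (lossBlocks K x ρ) := by
  have hnn : 0 ≤ totalEnt K (lossBlocks K x ρ) := by
    apply totalEnt_nonneg K _ (fun k => loss_posSemidef K hx0 hx1 h.psd k)
    rw [loss_trace K hx0 h.supp, h.tr_one]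
  rcases hx0.eq_or_lt with rfl | hxpos
  · simpa [gFun_zero] using hnn
  rcases hy0.eq_or_lt with rfl | hypos
  · simpa [gFun_zero] using hnn
  by_contra hcon
  push Not at hcon
  -- mixture properties
  have hmixpsd : ∀ e ∈ Icc (0 : ℝ) 1, ∀ k, (mixBlocks K ρ e k).PosSemidef := by
    intro e he k
    exact ((h.psd k).smul (sub_nonneg.2 he.2)).add ((mixed_posSemidef K k).smul he.1)
  have hmixpd : ∀ e ∈ Ioc (0 : ℝ) 1, ∀ k, k ≤ K → (mixBlocks K ρ e k).PosDef := by
    intro e he k hk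
    exact ((mixed_posDef K hk).smul he.1).posSemidef_add ((h.psd k).smul (sub_nonneg.2 he.2))
  have hmixsupp : ∀ e k, K < k → mixBlocks K ρ e k = 0 := by
    intro e k hk
    have : ¬ k ≤ K := by omega
    simp [mixBlocks, mixedBlocks, this, h.supp k hk]
  have hmixtr : ∀ e, ∑ k ∈ range (K + 1), (trace (mixBlocks K ρ e k)).re = 1 := by
    intro e
    have : ∀ k, (trace (mixBlocks K ρ e k)).re =
        (1 - e) * (trace (ρ k)).re + e * (trace (mixedBlocks K k)).re := by
      intro k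
      simp [mixBlocks, trace_add, trace_smul]
    simp_rw [this]
    rw [Finset.sum_add_distrib, ← Finset.mul_sum, ← Finset.mul_sum, h.tr_one, mixed_trace]
    ring
  -- continuity in the mixing parameter
  have hF : ContinuousOn (fun e => totalEnt K (mixBlocks K ρ e)) (Icc 0 1) := by
    unfold totalEnt
    refine continuousOn_finsetSum _ (fun k _ => ?_)
    apply vnEnt_continuousOn_of _ (fun e => mixBlocks K ρ e k)
    · unfold mixBlocks
      fun_prop
    · exact fun e he => hmixpsd e he k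
  have hH : ContinuousOn (fun e => totalEnt K (lossBlocks K x (mixBlocks K ρ e))) (Icc 0 1) := by
    unfold totalEnt
    refine continuousOn_finsetSum _ (fun k _ => ?_)
    apply vnEnt_continuousOn_of _ (fun e => lossBlocks K x (mixBlocks K ρ e) k)
    · exact loss_continuous_input K x ρ (mixedBlocks K) k
    · exact fun e he => loss_posSemidef K hxpos.le hx1 (hmixpsd e he) k
  have hF0 : totalEnt K (mixBlocks K ρ 0) = totalEnt K ρ := by
    have : mixBlocks K ρ 0 = ρ := by
      funext m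
      simp [mixBlocks]
    rw [this]
  have hH0 : totalEnt K (lossBlocks K x (mixBlocks K ρ 0)) = totalEnt K (lossBlocks K x ρ) := by
    have : mixBlocks K ρ 0 = ρ := by
      funext m
      simp [mixBlocks]
    rw [this]
  -- choose `y'` slightly smaller than `y`
  have hc2 : Continuous (fun t : ℝ => 2 * gFun (x * t)) := by
    have := gFun_continuous
    fun_prop
  have hev : ∀ᶠ t in 𝓝[<] y, totalEnt K (lossBlocks K x ρ) < 2 * gFun (x * t) :=
    (hc2.continuousWithinAt.eventually (lt_mem_nhds hcon))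
  have hev2 : ∀ᶠ t in 𝓝[<] y, t ∈ Ioo 0 y := Ioo_mem_nhdsLT hypos
  obtain ⟨y', hy'1, hy'2⟩ := (hev.and hev2).exists
  have hlt : 2 * gFun y' < totalEnt K ρ := by
    rw [← hy]
    have := gFun_strictMonoOn (Set.mem_Ici.2 hy'2.1.le) (Set.mem_Ici.2 hy0) hy'2.2
    linarith
  -- choose the mixing parameter
  have h0mem : (0 : ℝ) ∈ Icc (0 : ℝ) 1 := ⟨le_rfl, zero_le_one⟩
  have hsub : Ioi (0 : ℝ) ∩ Icc 0 1 ⊆ Icc 0 1 := inter_subset_right
  have hev3 : ∀ᶠ e in 𝓝[>] (0 : ℝ), e ∈ Ioc (0 : ℝ) 1 := Ioc_mem_nhdsGT one_pos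
  have hnhd : 𝓝[>] (0 : ℝ) ≤ 𝓝[Icc 0 1] 0 := by
    rw [nhdsWithin_le_iff]
    filter_upwards [Ioc_mem_nhdsGT (one_pos (α := ℝ))] with e he
    exact ⟨he.1.le, he.2⟩
  have hev4 : ∀ᶠ e in 𝓝[>] (0 : ℝ), 2 * gFun y' < totalEnt K (mixBlocks K ρ e) := by
    apply hnhd
    have h1 : Tendsto (fun e => totalEnt K (mixBlocks K ρ e)) (𝓝[Icc 0 1] 0)
        (𝓝 (totalEnt K (mixBlocks K ρ 0))) := hF 0 h0mem
    rw [hF0] at h1
    exact h1.eventually (lt_mem_nhds hlt)
  have hev5 : ∀ᶠ e in 𝓝[>] (0 : ℝ), totalEnt K (lossBlocks K x (mixBlocks K ρ e)) < 2 * gFun (x * y') := by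
    apply hnhd
    have h1 : Tendsto (fun e => totalEnt K (lossBlocks K x (mixBlocks K ρ e))) (𝓝[Icc 0 1] 0)
        (𝓝 (totalEnt K (lossBlocks K x (mixBlocks K ρ 0)))) := hH 0 h0mem
    rw [hH0] at h1
    exact h1.eventually (gt_mem_nhds hy'1)
  obtain ⟨e, he1, he2, he3⟩ := (hev3.and (hev4.and hev5)).exists
  have hmain := main_pd K (mixBlocks K ρ e) (hmixpd e he1)
    (hmixpsd e ⟨he1.1.le, he1.2⟩) (hmixsupp e) (hmixtr e) hy'2.1.le he2.le hxpos hx1
  linarith

end

end Vale.Agent.Lib.P369G
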