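import Mathlib

/-! # P369: the north-west corner rearrangement -/

namespace Vale.Agent.Lib.P369G

open Finset

private lemma filter_le_succ {n : ℕ} (m : Fin n) :
    (univ.filter (fun i : Fin (n + 1) => i ≤ m.succ)) =
      insert m.succ (univ.filter (fun i : Fin (n + 1) => i ≤ m.castSucc)) := by
  ext i
  simp only [mem_filter, mem_univ, true_and, mem_insert, Fin.le_def, Fin.ext_iff, Fin.val_succ,
    Fin.val_castSucc]
  omega

private lemma succ_notMem_filter {n : ℕ} (m : Fin n) :
    m.succ ∉ (univ.filter (fun i : Fin (n + 1) => i ≤ m.castSucc)) := by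
  simp only [mem_filter, mem_univ, true_and, Fin.le_def, Fin.val_succ, Fin.val_castSucc]
  omega

/-- Abel summation: an antitone weight against a sequence with non-negative partial sums. -/
private lemma abel_aux {n : ℕ} (a c : Fin (n + 1) → ℝ) (ha : Antitone a)
    (hC : ∀ m : Fin (n + 1), 0 ≤ ∑ i ∈ univ.filter (fun i => i ≤ m), c i)
    (m : Fin (n + 1)) :
    a m * ∑ i ∈ univ.filter (fun i => i ≤ m), c i ≤
      ∑ i ∈ univ.filter (fun i => i ≤ m), a i * c i := by
  induction m using Fin.induction with
  | zero =>
    have : (univ.filter (fun i : Fin (n + 1) => i ≤ 0)) = {0} := by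
      ext i
      simp
    rw [this]
    simp
  | succ m ih =>
    rw [filter_le_succ, sum_insert (succ_notMem_filter m), sum_insert (succ_notMem_filter m)]
    have h1 : a m.succ ≤ a m.castSucc := ha (by simp [Fin.le_def])
    have h2 := hC m.castSucc
    nlinarith [mul_le_mul_of_nonneg_right h1 h2]

private lemma abel_nonneg {n : ℕ} (a c : Fin (n + 1) → ℝ) (ha : Antitone a)
    (hC : ∀ m : Fin (n + 1), 0 ≤ ∑ i ∈ univ.filter (fun i => i ≤ m), c i)
    (htot : ∑ i, c i = 0) : 0 ≤ ∑ i, a i * c i := by
  have h := abel_aux a c ha hC (Fin.last n)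
  have hf : (univ.filter (fun i : Fin (n + 1) => i ≤ Fin.last n)) = univ := by
    ext i
    simp [Fin.le_last]
  rw [hf, htot, mul_zero] at h
  exact h

/-- The north-west corner plan. -/
private noncomputable def wStar (k : ℕ) (i : Fin (k + 2)) (j : Fin (k + 1)) : ℝ :=
  (if i = j.castSucc then ((k : ℝ) + 1 - (j : ℕ)) else 0) +
    (if i = j.succ then (((j : ℕ) : ℝ) + 1) else 0)

private lemma wStar_row (k : ℕ) (i : Fin (k + 2)) : ∑ j, wStar k i j = (k : ℝ) + 1 := by
  unfold wStar
  rw [sum_add_distrib]
  have h1 : ∑ j : Fin (k + 1), (if i = j.castSucc then ((k : ℝ) + 1 - (j : ℕ)) else 0)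
      = (k : ℝ) + 1 - (i : ℕ) := by
    induction i using Fin.lastCases with
    | last =>
      have : ∀ j : Fin (k + 1), ¬ (Fin.last (k + 1) = j.castSucc) := by
        intro j h
        have := congrArg Fin.val h
        simp at this
        omega
      simp [this]
    | cast j₀ =>
      have : ∀ j : Fin (k + 1), (j₀.castSucc = j.castSucc) = (j₀ = j) := by
        intro j
        simp [Fin.castSucc_inj]
      simp [this]
  have h2 : ∑ j : Fin (k + 1), (if i = j.succ then (((j : ℕ) : ℝ) + 1) else 0) = (i : ℕ) := by
    induction i using Fin.cases with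
    | zero =>
      have : ∀ j : Fin (k + 1), ¬ ((0 : Fin (k + 2)) = j.succ) := by
        intro j h
        have := congrArg Fin.val h
        simp at this
      simp [this]
    | succ j₀ =>
      have : ∀ j : Fin (k + 1), (j₀.succ = j.succ) = (j₀ = j) := by
        intro j
        simp [Fin.succ_inj]
      simp [this]
  rw [h1, h2]
  ring

private lemma wStar_col (k : ℕ) (j : Fin (k + 1)) (F : Finset (Fin (k + 2)))
    (h1 : j.castSucc ∈ F) (h2 : j.succ ∈ F) : ∑ i ∈ F, wStar k i j = (k : ℝ) + 2 := by
  unfold wStar
  rw [sum_add_distrib, sum_ite_eq', sum_ite_eq']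
  simp [h1, h2]
  ring

/-- Paper proof. Abel summation in `i` with `A` antitone; the partial row sums
`F m = ∑_{i ≤ m} ∑_j W i j * B j` are bounded by the bathtub principle: `v j = ∑_{i ≤ m} W i j` has
`0 ≤ v j ≤ k+2`, `∑_j v j = (m+1)(k+1)`, `B` antitone, so `∑_j v j B j ≤ (k+2) ∑_{j<m} B j + (k+1-m) B m`,
(`(v* j - v j)(B j - B m) ≥ 0` termwise), with equality in the last partial sum `m = k+1`. -/
theorem nw_rearrangement (k : ℕ) (W : Fin (k + 2) → Fin (k + 1) → ℝ) (hW : ∀ i j, 0 ≤ W i j)
    (hrow : ∀ i, ∑ j, W i j = (k : ℝ) + 1) (hcol : ∀ j, ∑ i, W i j = (k : ℝ) + 2)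
    (A : Fin (k + 2) → ℝ) (B : Fin (k + 1) → ℝ) (hA : Antitone A) (hB : Antitone B) :
    ∑ i, ∑ j, W i j * A i * B j ≤
      ∑ j : Fin (k + 1), (((k : ℝ) + 1 - (j : ℕ)) * A j.castSucc * B j
        + (((j : ℕ) : ℝ) + 1) * A j.succ * B j) := by
  -- the right side is the same sum for the corner plan
  have hR : ∑ j : Fin (k + 1), (((k : ℝ) + 1 - (j : ℕ)) * A j.castSucc * B j
        + (((j : ℕ) : ℝ) + 1) * A j.succ * B j) = ∑ i, ∑ j, wStar k i j * A i * B j := by
    rw [sum_comm]
    refine sum_congr rfl fun j _ => ?_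
    unfold wStar
    simp only [add_mul, ite_mul, zero_mul]
    rw [sum_add_distrib]
    simp
  rw [hR]
  set c : Fin (k + 2) → ℝ := fun i => ∑ j, (wStar k i j - W i j) * B j with hc
  have hdiff : ∑ i, ∑ j, wStar k i j * A i * B j - ∑ i, ∑ j, W i j * A i * B j
      = ∑ i, A i * c i := by
    rw [← sum_sub_distrib]
    refine sum_congr rfl fun i _ => ?_
    rw [← sum_sub_distrib, hc, mul_sum]
    refine sum_congr rfl fun j _ => ?_
    ring
  -- partial sums, by columns
  have hpart : ∀ F : Finset (Fin (k + 2)), ∑ i ∈ F, c i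
      = ∑ j, (∑ i ∈ F, wStar k i j - ∑ i ∈ F, W i j) * B j := by
    intro F
    simp only [hc]
    rw [sum_comm]
    refine sum_congr rfl fun j _ => ?_
    rw [← sum_mul, sum_sub_distrib]
  have htot : ∑ i, c i = 0 := by
    rw [hpart]
    refine sum_eq_zero fun j _ => ?_
    rw [wStar_col k j univ (mem_univ _) (mem_univ _), hcol]
    ring
  have hC : ∀ m : Fin (k + 2), 0 ≤ ∑ i ∈ univ.filter (fun i => i ≤ m), c i := by
    intro m
    induction m using Fin.lastCases with
    | last =>
      have hf : (univ.filter (fun i : Fin (k + 2) => i ≤ Fin.last (k + 1))) = univ := by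
        ext i
        simp [Fin.le_last]
      rw [hf, htot]
    | cast m =>
      set F := univ.filter (fun i : Fin (k + 2) => i ≤ m.castSucc) with hF
      rw [hpart]
      -- the total mass of the difference vanishes
      have hmass : ∑ j, (∑ i ∈ F, wStar k i j - ∑ i ∈ F, W i j) = 0 := by
        rw [sum_sub_distrib, sum_comm, sum_comm (f := fun j i => W i j)]
        rw [sub_eq_zero]
        refine sum_congr rfl fun i _ => ?_
        rw [wStar_row, hrow]
      have hshift : ∑ j, (∑ i ∈ F, wStar k i j - ∑ i ∈ F, W i j) * B j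
          = ∑ j, (∑ i ∈ F, wStar k i j - ∑ i ∈ F, W i j) * (B j - B m) := by
        have : ∑ j, (∑ i ∈ F, wStar k i j - ∑ i ∈ F, W i j) * (B j - B m)
            = ∑ j, (∑ i ∈ F, wStar k i j - ∑ i ∈ F, W i j) * B j
              - (∑ j, (∑ i ∈ F, wStar k i j - ∑ i ∈ F, W i j)) * B m := by
          rw [sum_mul, ← sum_sub_distrib]
          refine sum_congr rfl fun j _ => ?_
          ring
        rw [this, hmass]
        ring
      rw [hshift]
      refine sum_nonneg fun j _ => ?_
      rcases lt_trichotomy j m with hjm | rfl | hjm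
      · -- column fully inside
        have h1 : j.castSucc ∈ F := by
          simp only [hF, mem_filter, mem_univ, true_and, Fin.le_def, Fin.val_castSucc]
          exact hjm.le
        have h2 : j.succ ∈ F := by
          simp only [hF, mem_filter, mem_univ, true_and, Fin.le_def, Fin.val_succ, Fin.val_castSucc]
          exact hjm
        rw [wStar_col k j F h1 h2]
        have hle : ∑ i ∈ F, W i j ≤ ∑ i, W i j :=
          sum_le_sum_of_subset_of_nonneg (subset_univ _) fun i _ _ => hW i j
        rw [hcol] at hle
        exact mul_nonneg (by linarith) (by linarith [hB hjm.le])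
      · simp
      · -- column fully outside
        have h0 : ∑ i ∈ F, wStar k i j = 0 := by
          refine sum_eq_zero fun i hi => ?_
          simp only [hF, mem_filter, mem_univ, true_and, Fin.le_def, Fin.val_castSucc] at hi
          have hlt : (m : ℕ) < (j : ℕ) := hjm
          unfold wStar
          rw [if_neg, if_neg]
          · ring
          · intro h
            have := congrArg Fin.val h
            simp only [Fin.val_succ] at this
            omega
          · intro h
            have := congrArg Fin.val h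
            simp only [Fin.val_castSucc] at this
            omega
        rw [h0]
        have hnn : 0 ≤ ∑ i ∈ F, W i j := sum_nonneg fun i _ => hW i j
        have hBle : B j ≤ B m := hB hjm.le
        nlinarith [mul_nonneg hnn (sub_nonneg.mpr hBle)]
  have := abel_nonneg A c hA hC htot
  linarith [hdiff]

end Vale.Agent.Lib.P369G
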