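import Vale.Agent.Lib.P369G.Calc

/-! # P369: the tail-sum bound for one mode (finite support) -/

namespace Vale.Agent.Lib.P369G

open Finset

/-- The log sum inequality, with a possibly larger total on the right. -/
theorem log_sum_le {ι : Type*} (s : Finset ι) (u v : ι → ℝ) (hu : ∀ j ∈ s, 0 < u j)
    (hv : ∀ j ∈ s, 0 < v j) {U V : ℝ} (hU : U = ∑ j ∈ s, u j) (hUpos : 0 < U) (hVpos : 0 < V)
    (hV : ∑ j ∈ s, v j ≤ V) :
    U * Real.log (U / V) ≤ ∑ j ∈ s, u j * Real.log (u j / v j) := by
  have hterm : ∀ j ∈ s, u j * Real.log (U / V) + u j - v j * (U / V)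
      ≤ u j * Real.log (u j / v j) := by
    intro j hj
    have huj := hu j hj
    have hvj := hv j hj
    have hx : 0 < u j * V / (v j * U) := by positivity
    have h1 := Real.one_sub_inv_le_log_of_pos hx
    have h2 : Real.log (u j * V / (v j * U)) = Real.log (u j / v j) - Real.log (U / V) := by
      rw [← Real.log_div (by positivity) (by positivity)]
      congr 1
      field_simp
    rw [h2] at h1
    have h3 := mul_le_mul_of_nonneg_left h1 huj.le
    have h4 : u j * (1 - (u j * V / (v j * U))⁻¹) = u j - v j * (U / V) := by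
      field_simp
    rw [h4] at h3
    nlinarith
  have hsum := Finset.sum_le_sum hterm
  rw [Finset.sum_sub_distrib, Finset.sum_add_distrib, ← Finset.sum_mul, ← Finset.sum_mul, ← hU] at hsum
  have h5 : (∑ j ∈ s, v j) * (U / V) ≤ V * (U / V) :=
    mul_le_mul_of_nonneg_right hV (by positivity)
  have h6 : V * (U / V) = U := by field_simp
  linarith

/-- Layer cake for a weighted sum. -/
theorem abel_tail (M : ℕ) (t : ℕ → ℝ) :
    ∑ j ∈ range (M + 1), (j : ℝ) * t j = ∑ i ∈ range M, ∑ j ∈ Ico (i + 1) (M + 1), t j := by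
  induction M with
  | zero => simp
  | succ M ih =>
    rw [Finset.sum_range_succ, ih]
    have h : ∀ i ∈ range (M + 1), ∑ j ∈ Ico (i + 1) (M + 1 + 1), t j =
        ∑ j ∈ Ico (i + 1) (M + 1), t j + t (M + 1) := by
      intro i hi
      have : i + 1 ≤ M + 1 := by
        have := mem_range.1 hi
        omega
      rw [Finset.sum_Ico_succ_top this]
    rw [Finset.sum_congr rfl h, Finset.sum_add_distrib, Finset.sum_range_succ (fun i => ∑ j ∈ Ico (i + 1) (M + 1), t j)]
    simp

/-- `q g(R/q) = (q+R) log (q+R) - R log R - q log q`. -/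
theorem mul_gFun_div {q R : ℝ} (hq : 0 < q) (hR : 0 ≤ R) :
    q * gFun (R / q) = (q + R) * Real.log (q + R) - R * Real.log R - q * Real.log q := by
  rcases hR.eq_or_lt with rfl | hRpos
  · simp [gFun]
  · have h1 : R / q + 1 = (q + R) / q := by field_simp; ring
    unfold gFun
    rw [h1, Real.log_div (by positivity) hq.ne', Real.log_div hRpos.ne' hq.ne']
    field_simp
    ring

/-- `q ψ(R/q) = R log ((q+R)/R)`. -/
theorem mul_psiFun_div {q R : ℝ} (hq : 0 < q) (hR : 0 ≤ R) :
    q * psiFun (R / q) = R * Real.log ((q + R) / R) := by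
  rcases hR.eq_or_lt with rfl | hRpos
  · simp [psiFun]
  · unfold psiFun
    have h1 : 1 + 1 / (R / q) = (q + R) / R := by field_simp; ring
    rw [h1]
    field_simp

/-- Paper proof. `Q i = ∑_{j=i}^M q j` (so `Q (M+1) = 0`), `y j = Q (j+1) / q j`.
(1) `∑_j j t_j = ∑_{i=1}^M ∑_{j=i}^M t_j` with `t_j = q j log (q j / q (j-1))`.
(2) log sum inequality on the tail: `∑_{j=i}^M t_j ≥ Q i log (Q i / ∑_{j=i}^M q (j-1)) ≥ Q i log (Q i / Q (i-1))`.
(3) `q j ψ(y j) = Q (j+1) log (Q j / Q (j+1))` and `q j g(y j) = Q j log Q j - Q (j+1) log Q (j+1) - q j log q j`,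
which telescopes to `∑_j q j g(y j) = Q 0 log Q 0 + ∑_j negMulLog (q j)`.
(4) `psi_tangent` with `y = y j` (`y M = 0`), multiplied by `q j`, summed over `j`. -/
theorem oneD_bound (M : ℕ) (q : ℕ → ℝ) (hq : ∀ j, j ≤ M → 0 < q j) {ystar : ℝ} (hs : 0 < ystar) :
    -(∑ j ∈ range (M + 1), q j) * psiFun ystar
      - kappaFun ystar * (∑ j ∈ range (M + 1), Real.negMulLog (q j)
          + (∑ j ∈ range (M + 1), q j) * Real.log (∑ j ∈ range (M + 1), q j)
          - (∑ j ∈ range (M + 1), q j) * gFun ystar)
      ≤ ∑ j ∈ range (M + 1), (j : ℝ) * q j * Real.log (q j / q (j - 1)) := by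
  set Q : ℕ → ℝ := fun i => ∑ j ∈ Ico i (M + 1), q j with hQ
  have hQ0 : Q 0 = ∑ j ∈ range (M + 1), q j := by
    rw [Finset.range_eq_Ico]
  have hQtop : Q (M + 1) = 0 := by simp [hQ]
  have hQstep : ∀ i, i ≤ M → Q i = q i + Q (i + 1) := by
    intro i hi
    simp only [hQ]
    rw [Finset.sum_eq_sum_Ico_succ_bot (by omega)]
  have hQnn : ∀ i, 0 ≤ Q i := by
    intro i
    apply Finset.sum_nonneg
    intro j hj
    exact (hq j (by have := (mem_Ico.1 hj).2; omega)).le
  have hQpos : ∀ i, i ≤ M → 0 < Q i := by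
    intro i hi
    rw [hQstep i hi]
    linarith [hq i hi, hQnn (i + 1)]
  -- step 1, 2: from the weighted sum to the tail sums
  have hW : ∑ i ∈ range M, Q (i + 1) * Real.log (Q (i + 1) / Q i)
      ≤ ∑ j ∈ range (M + 1), (j : ℝ) * q j * Real.log (q j / q (j - 1)) := by
    have h1 : ∑ j ∈ range (M + 1), (j : ℝ) * q j * Real.log (q j / q (j - 1)) =
        ∑ i ∈ range M, ∑ j ∈ Ico (i + 1) (M + 1), q j * Real.log (q j / q (j - 1)) := by
      rw [← abel_tail]
      apply Finset.sum_congr rfl
      intro j _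
      ring
    rw [h1]
    apply Finset.sum_le_sum
    intro i hi
    have hi' : i < M := mem_range.1 hi
    apply log_sum_le (Ico (i + 1) (M + 1)) q (fun j => q (j - 1)) _ _ rfl (hQpos _ (by omega))
      (hQpos _ (by omega))
    · -- the shifted total
      simp only [hQ]
      rw [Finset.sum_Ico_eq_sum_range, Finset.sum_Ico_eq_sum_range]
      have e : ∀ k ∈ range (M + 1 - (i + 1)), q (i + 1 + k - 1) = q (i + k) := by
        intro k _
        congr 1
        omega
      rw [Finset.sum_congr rfl e]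
      apply Finset.sum_le_sum_of_subset_of_nonneg
      · intro k hk
        simp only [mem_range] at hk ⊢
        omega
      · intro k hk _
        simp only [mem_range] at hk
        exact (hq _ (by omega)).le
    · intro j hj
      exact hq j (by have := (mem_Ico.1 hj).2; omega)
    · intro j hj
      exact hq _ (by have := (mem_Ico.1 hj).2; omega)
  -- step 3: the identities for `ψ` and `g`
  set y : ℕ → ℝ := fun j => Q (j + 1) / q j with hy
  have hynn : ∀ j, j ≤ M → 0 ≤ y j := fun j hj => div_nonneg (hQnn _) (hq j hj).le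
  have hpsi : ∀ j, j ≤ M → q j * psiFun (y j) = Q (j + 1) * Real.log (Q j / Q (j + 1)) := by
    intro j hj
    rw [mul_psiFun_div (hq j hj) (hQnn _), hQstep j hj]
  have hg : ∀ j, j ≤ M → q j * gFun (y j)
      = Q j * Real.log (Q j) - Q (j + 1) * Real.log (Q (j + 1)) + Real.negMulLog (q j) := by
    intro j hj
    rw [mul_gFun_div (hq j hj) (hQnn _), ← hQstep j hj, Real.negMulLog]
    ring
  have hlogterm : ∀ i ∈ range M, Q (i + 1) * Real.log (Q (i + 1) / Q i) = - (q i * psiFun (y i)) := by
    intro i hi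
    have hi' : i < M := mem_range.1 hi
    rw [hpsi i (by omega), Real.log_div (hQpos _ (by omega)).ne' (hQpos _ (by omega)).ne',
      Real.log_div (hQpos _ (by omega)).ne' (hQpos _ (by omega)).ne']
    ring
  have hyM : q M * psiFun (y M) = 0 := by
    rw [hpsi M le_rfl, hQtop]
    simp
  have hS : ∑ i ∈ range M, Q (i + 1) * Real.log (Q (i + 1) / Q i)
      = - ∑ j ∈ range (M + 1), q j * psiFun (y j) := by
    rw [Finset.sum_range_succ, hyM, add_zero, Finset.sum_congr rfl hlogterm, Finset.sum_neg_distrib]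
  -- step 4: the tangent line
  have htan : ∀ j ∈ range (M + 1), q j * psiFun (y j)
      ≤ q j * psiFun ystar + kappaFun ystar * (q j * gFun (y j) - q j * gFun ystar) := by
    intro j hj
    have hj' : j ≤ M := by
      have := mem_range.1 hj
      omega
    have := mul_le_mul_of_nonneg_left (psi_tangent hs (hynn j hj')) (hq j hj').le
    nlinarith
  have hsum := Finset.sum_le_sum htan
  rw [Finset.sum_add_distrib, ← Finset.mul_sum, Finset.sum_sub_distrib, ← Finset.sum_mul,
    ← Finset.sum_mul] at hsum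
  have hsumg : ∑ j ∈ range (M + 1), q j * gFun (y j)
      = (∑ j ∈ range (M + 1), Real.negMulLog (q j))
        + (∑ j ∈ range (M + 1), q j) * Real.log (∑ j ∈ range (M + 1), q j) := by
    have h1 : ∀ j ∈ range (M + 1), q j * gFun (y j)
        = (Q j * Real.log (Q j) - Q (j + 1) * Real.log (Q (j + 1))) + Real.negMulLog (q j) := by
      intro j hj
      exact hg j (by have := mem_range.1 hj; omega)
    rw [Finset.sum_congr rfl h1, Finset.sum_add_distrib, Finset.sum_range_sub', hQtop, hQ0]
    simp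
    ring
  rw [hsumg] at hsum
  calc _ = - ((∑ j ∈ range (M + 1), q j) * psiFun ystar
        + kappaFun ystar * ((∑ j ∈ range (M + 1), Real.negMulLog (q j)
        + (∑ j ∈ range (M + 1), q j) * Real.log (∑ j ∈ range (M + 1), q j))
        - (∑ j ∈ range (M + 1), q j) * gFun ystar)) := by ring
    _ ≤ - ∑ j ∈ range (M + 1), q j * psiFun (y j) := by
        apply neg_le_neg
        exact hsum
    _ = _ := hS.symm
    _ ≤ _ := hW

end Vale.Agent.Lib.P369G
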