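import Vale.Agent.Lib.P369G.Defs

/-! # P369: objects used only in the proofs -/

namespace Vale.Agent.Lib.P369G

open Matrix Finset

noncomputable section

/-- `ψ(y) = y log (1 + 1/y)`. -/
def psiFun (y : ℝ) : ℝ := y * Real.log (1 + 1 / y)

/-- The slope `κ = 1 - 1 / ((y+1) log (1+1/y))` of `ψ ∘ g⁻¹` at `g y`. -/
def kappaFun (y : ℝ) : ℝ := 1 - 1 / ((y + 1) * Real.log (1 + 1 / y))

/-- Lowering matrix of the first mode, `k+1` photons to `k` photons: `|k+1-i, i⟩ ↦ √(k+1-i) |k-i, i⟩`. -/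
def aOne (k : ℕ) : Matrix (Fin (k + 1)) (Fin (k + 2)) ℂ :=
  Matrix.of fun i j => if (j : ℕ) = (i : ℕ) then ((Real.sqrt ((k : ℝ) + 1 - (i : ℕ)) : ℝ) : ℂ) else 0

/-- Lowering matrix of the second mode, `k+1` photons to `k` photons: `|k-i, i+1⟩ ↦ √(i+1) |k-i, i⟩`. -/
def aTwo (k : ℕ) : Matrix (Fin (k + 1)) (Fin (k + 2)) ℂ :=
  Matrix.of fun i j => if (j : ℕ) = (i : ℕ) + 1 then ((Real.sqrt ((i : ℝ) + 1) : ℝ) : ℂ) else 0

/-- `Λ(X) = a₁ X a₁† + a₂ X a₂†`, from the `k+1` photon sector to the `k` photon sector. -/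
def lamMap (k : ℕ) (X : Matrix (Fin (k + 2)) (Fin (k + 2)) ℂ) : Matrix (Fin (k + 1)) (Fin (k + 1)) ℂ :=
  aOne k * X * (aOne k)ᴴ + aTwo k * X * (aTwo k)ᴴ

end

end Vale.Agent.Lib.P369G
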