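import Vale.Agent.Lib.P369G.Ladder
import Vale.Agent.Lib.P369G.NW
import Vale.Agent.Lib.P358.EntBasic

/-! # P369: rearrangement in a sector -/

namespace Vale.Agent.Lib.P369G

open Matrix Finset
open scoped ComplexOrder

noncomputable section

/-- Eigenvalues of a Hermitian matrix on `Fin d`, sorted decreasingly. -/
def sEig {d : ℕ} {A : Matrix (Fin d) (Fin d) ℂ} (hA : A.IsHermitian) (i : Fin d) : ℝ :=
  hA.eigenvalues (Tuple.sort (fun j => -hA.eigenvalues j) i)

theorem sEig_antitone {d : ℕ} {A : Matrix (Fin d) (Fin d) ℂ} (hA : A.IsHermitian) :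
    Antitone (sEig hA) := by
  intro i j hij
  have h := Tuple.monotone_sort (fun j => -hA.eigenvalues j) hij
  simp only [Function.comp] at h
  exact neg_le_neg_iff.mp h

theorem sum_sEig {d : ℕ} {A : Matrix (Fin d) (Fin d) ℂ} (hA : A.IsHermitian) (F : ℝ → ℝ) :
    ∑ i, F (sEig hA i) = ∑ i, F (hA.eigenvalues i) :=
  Equiv.sum_comp (Tuple.sort (fun j => -hA.eigenvalues j)) (fun i => F (hA.eigenvalues i))

/-- `re tr (X D_α Xᴴ D_β) = ∑_i ∑_j |X j i|² α_i β_j`. -/
private lemma trace_conj_diag {m n : Type*} [Fintype m] [Fintype n] [DecidableEq m] [DecidableEq n]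
    (X : Matrix m n ℂ) (α : n → ℝ) (β : m → ℝ) :
    (trace (X * diagonal (fun i => ((α i : ℝ) : ℂ)) * Xᴴ * diagonal (fun j => ((β j : ℝ) : ℂ)))).re =
      ∑ i, ∑ j, Complex.normSq (X j i) * α i * β j := by
  rw [Finset.sum_comm]
  have key : ∀ j, (X * diagonal (fun i => ((α i : ℝ) : ℂ)) * Xᴴ * diagonal (fun j => ((β j : ℝ) : ℂ))) j j
      = ∑ i, ((Complex.normSq (X j i) * α i * β j : ℝ) : ℂ) := by
    intro j
    rw [Matrix.mul_diagonal, Matrix.mul_apply, Finset.sum_mul]
    refine Finset.sum_congr rfl fun i _ => ?_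
    rw [Matrix.mul_diagonal, Matrix.conjTranspose_apply]
    have h1 : X j i * star (X j i) = ((Complex.normSq (X j i) : ℝ) : ℂ) := by
      rw [Complex.star_def, Complex.mul_conj]
    push_cast
    rw [← h1]
    ring
  simp only [trace, diag_apply, key, Complex.re_sum, Complex.ofReal_re]

/-- The diagonal entries of `Xᴴ X`. -/
private lemma sum_normSq_col {m n : Type*} [Fintype m] [Fintype n] [DecidableEq n]
    (X : Matrix m n ℂ) (i : n) :
    ((∑ j, Complex.normSq (X j i) : ℝ) : ℂ) = (Xᴴ * X) i i := by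
  rw [Matrix.mul_apply]
  push_cast
  refine Finset.sum_congr rfl fun j _ => ?_
  rw [Matrix.conjTranspose_apply, Complex.star_def, mul_comm, Complex.mul_conj]

/-- The diagonal entries of `X Xᴴ`. -/
private lemma sum_normSq_row {m n : Type*} [Fintype m] [Fintype n] [DecidableEq m]
    (X : Matrix m n ℂ) (j : m) :
    ((∑ i, Complex.normSq (X j i) : ℝ) : ℂ) = (X * Xᴴ) j j := by
  rw [Matrix.mul_apply]
  push_cast
  refine Finset.sum_congr rfl fun i _ => ?_
  rw [Matrix.conjTranspose_apply, Complex.star_def, Complex.mul_conj]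

/-- Paper proof. `U, V` eigenvector unitaries of `A, B`, `W i j = ∑_ν |(V† a_ν U) j i|²`.
Then `re tr (lamMap k A * logm B) = ∑_{i,j} W i j α_i (log μ_j)`; rows sum to `k+1` by `ladder_down`,
columns to `k+2` by `ladder_up`. Reindex by the sorting permutations and apply `nw_rearrangement`
(`log ∘ sEig` is antitone since `B ≻ 0`). -/
theorem sector_rearr (k : ℕ) {A : Matrix (Fin (k + 2)) (Fin (k + 2)) ℂ}
    {B : Matrix (Fin (k + 1)) (Fin (k + 1)) ℂ} (hA : A.IsHermitian) (hB : B.PosDef) :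
    (trace (lamMap k A * Vale.Agent.Lib.P358.logm B)).re ≤
      ∑ j : Fin (k + 1), (((k : ℝ) + 1 - (j : ℕ)) * sEig hA j.castSucc * Real.log (sEig hB.1 j)
        + (((j : ℕ) : ℝ) + 1) * sEig hA j.succ * Real.log (sEig hB.1 j)) := by
  set hB' : B.IsHermitian := hB.1 with hB'def
  set U : Matrix (Fin (k + 2)) (Fin (k + 2)) ℂ := (hA.eigenvectorUnitary : Matrix (Fin (k + 2)) (Fin (k + 2)) ℂ) with hUdef
  set V : Matrix (Fin (k + 1)) (Fin (k + 1)) ℂ := (hB'.eigenvectorUnitary : Matrix (Fin (k + 1)) (Fin (k + 1)) ℂ) with hVdef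
  have hUU : Uᴴ * U = 1 := by
    have := mem_unitaryGroup_iff'.mp hA.eigenvectorUnitary.2
    simpa [star_eq_conjTranspose] using this
  have hVV : Vᴴ * V = 1 := by
    have := mem_unitaryGroup_iff'.mp hB'.eigenvectorUnitary.2
    simpa [star_eq_conjTranspose] using this
  set α : Fin (k + 2) → ℝ := hA.eigenvalues with hα
  set l : Fin (k + 1) → ℝ := fun j => Real.log (hB'.eigenvalues j) with hl
  set D : Matrix (Fin (k + 2)) (Fin (k + 2)) ℂ := diagonal (fun i => ((α i : ℝ) : ℂ)) with hD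
  set L : Matrix (Fin (k + 1)) (Fin (k + 1)) ℂ := diagonal (fun j => ((l j : ℝ) : ℂ)) with hL
  have hAs : A = U * D * Uᴴ := by
    have := hA.spectral_theorem
    rw [this]
    simp [hUdef, hD, hα, Unitary.conjStarAlgAut_apply, star_eq_conjTranspose, Function.comp_def]
  have hlog : Vale.Agent.Lib.P358.logm B = V * L * Vᴴ := by
    simp [Vale.Agent.Lib.P358.logm, hB', hVdef, hL, hl]
  set X1 : Matrix (Fin (k + 1)) (Fin (k + 2)) ℂ := Vᴴ * aOne k * U with hX1
  set X2 : Matrix (Fin (k + 1)) (Fin (k + 2)) ℂ := Vᴴ * aTwo k * U with hX2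
  have htr : ∀ a : Matrix (Fin (k + 1)) (Fin (k + 2)) ℂ,
      trace (a * A * aᴴ * (V * L * Vᴴ)) =
        trace ((Vᴴ * a * U) * D * (Vᴴ * a * U)ᴴ * L) := by
    intro a
    have e1 : a * A * aᴴ * (V * L * Vᴴ) = (a * A * aᴴ * V * L) * Vᴴ := by
      simp only [Matrix.mul_assoc]
    rw [e1, Matrix.trace_mul_comm]
    congr 1
    rw [hAs]
    simp only [conjTranspose_mul, conjTranspose_conjTranspose, Matrix.mul_assoc]
  -- the doubly stochastic weights
  let W : Fin (k + 2) → Fin (k + 1) → ℝ :=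
    fun i j => Complex.normSq (X1 j i) + Complex.normSq (X2 j i)
  have hW0 : ∀ i j, 0 ≤ W i j := fun i j =>
    add_nonneg (Complex.normSq_nonneg _) (Complex.normSq_nonneg _)
  have hform : (trace (lamMap k A * Vale.Agent.Lib.P358.logm B)).re =
      ∑ i, ∑ j, W i j * α i * l j := by
    have e : lamMap k A * (V * L * Vᴴ) =
        aOne k * A * (aOne k)ᴴ * (V * L * Vᴴ) + aTwo k * A * (aTwo k)ᴴ * (V * L * Vᴴ) := by
      unfold lamMap
      rw [Matrix.add_mul]
    rw [hlog, e, trace_add, htr, htr, Complex.add_re, ← hX1, ← hX2, trace_conj_diag, trace_conj_diag,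
      ← Finset.sum_add_distrib]
    refine Finset.sum_congr rfl fun i _ => ?_
    rw [← Finset.sum_add_distrib]
    refine Finset.sum_congr rfl fun j _ => ?_
    simp only [W]
    ring
  have hrow : ∀ i, ∑ j, W i j = (k : ℝ) + 1 := by
    intro i
    have h1 : X1ᴴ * X1 + X2ᴴ * X2 = ((k : ℂ) + 1) • (1 : Matrix (Fin (k + 2)) (Fin (k + 2)) ℂ) := by
      have hVV' : V * Vᴴ = 1 := mul_eq_one_comm.mp hVV
      have e1 : ∀ a : Matrix (Fin (k + 1)) (Fin (k + 2)) ℂ,
          (Vᴴ * a * U)ᴴ * (Vᴴ * a * U) = Uᴴ * (aᴴ * a) * U := by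
        intro a
        simp only [conjTranspose_mul, conjTranspose_conjTranspose, Matrix.mul_assoc]
        rw [← Matrix.mul_assoc V Vᴴ, hVV', Matrix.one_mul]
      rw [hX1, hX2, e1, e1, ← Matrix.add_mul, ← Matrix.mul_add, ladder_down]
      rw [Matrix.mul_smul, Matrix.smul_mul, Matrix.mul_one, hUU]
    apply Complex.ofReal_injective
    rw [Finset.sum_congr rfl (fun j _ => rfl), Finset.sum_add_distrib]
    push_cast
    have h2 := sum_normSq_col X1 i
    have h3 := sum_normSq_col X2 i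
    push_cast at h2 h3
    rw [h2, h3, ← Matrix.add_apply, h1]
    simp
  have hcol : ∀ j, ∑ i, W i j = (k : ℝ) + 2 := by
    intro j
    have h1 : X1 * X1ᴴ + X2 * X2ᴴ = ((k : ℂ) + 2) • (1 : Matrix (Fin (k + 1)) (Fin (k + 1)) ℂ) := by
      have e1 : ∀ a : Matrix (Fin (k + 1)) (Fin (k + 2)) ℂ,
          (Vᴴ * a * U) * (Vᴴ * a * U)ᴴ = Vᴴ * (a * aᴴ) * V := by
        intro a
        have hUU' : U * Uᴴ = 1 := mul_eq_one_comm.mp hUU
        simp only [conjTranspose_mul, conjTranspose_conjTranspose, Matrix.mul_assoc]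
        rw [← Matrix.mul_assoc U Uᴴ, hUU', Matrix.one_mul]
      rw [hX1, hX2, e1, e1, ← Matrix.add_mul, ← Matrix.mul_add, ladder_up]
      rw [Matrix.mul_smul, Matrix.smul_mul, Matrix.mul_one, hVV]
    apply Complex.ofReal_injective
    rw [Finset.sum_congr rfl (fun i _ => rfl), Finset.sum_add_distrib]
    push_cast
    have h2 := sum_normSq_row X1 j
    have h3 := sum_normSq_row X2 j
    push_cast at h2 h3
    rw [h2, h3, ← Matrix.add_apply, h1]
    simp
  -- reindex by the sorting permutations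
  let σ : Equiv.Perm (Fin (k + 2)) := Tuple.sort (fun j => -hA.eigenvalues j)
  let τ : Equiv.Perm (Fin (k + 1)) := Tuple.sort (fun j => -hB'.eigenvalues j)
  have hBa : Antitone (fun j => Real.log (sEig hB' j)) := by
    intro i j hij
    have h1 : sEig hB' j ≤ sEig hB' i := sEig_antitone hB' hij
    exact Real.log_le_log (hB.eigenvalues_pos _) h1
  have hmain := nw_rearrangement k (fun i j => W (σ i) (τ j)) (fun i j => hW0 _ _)
    (fun i => by
      rw [Equiv.sum_comp τ (fun j => W (σ i) j)]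
      exact hrow _)
    (fun j => by
      rw [Equiv.sum_comp σ (fun i => W i (τ j))]
      exact hcol _)
    (sEig hA) (fun j => Real.log (sEig hB' j)) (sEig_antitone hA) hBa
  refine le_trans (le_of_eq ?_) hmain
  rw [hform]
  have e2 : ∑ i, ∑ j, W i j * α i * l j = ∑ i, ∑ j, W (σ i) j * α (σ i) * l j :=
    (Equiv.sum_comp σ (fun i => ∑ j, W i j * α i * l j)).symm
  rw [e2]
  refine Finset.sum_congr rfl fun i _ => ?_
  exact (Equiv.sum_comp τ (fun j => W (σ i) j * α (σ i) * l j)).symm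

end

end Vale.Agent.Lib.P369G
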