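import Vale.Agent.Lib.P369G.OneD

/-! # P369: chain rule for two modes, Fock diagonal case -/

namespace Vale.Agent.Lib.P369G

open Finset

/-- Paper proof. `oneD_bound` for each column `b ↦ P a b` (`M = K - a`), and `oneD_bound` for the
marginal `R a = ∑_b P a b` (`M = K`).  The first mode part is bounded by the log sum inequality:
`∑_b a P a b log (P a b / P (a-1) b) ≥ a R a log (R a / ∑_{b ≤ K-a} P (a-1) b) ≥ a R a log (R a / R (a-1))`.
Summing, the terms `∑ R a log R a` cancel, `∑ R a = 1`, `∑_a ∑_b negMulLog (P a b)` stays. -/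
theorem twoD_bound (K : ℕ) (P : ℕ → ℕ → ℝ) (hP : ∀ a b, a + b ≤ K → 0 < P a b)
    (hsum : ∑ a ∈ range (K + 1), ∑ b ∈ range (K + 1 - a), P a b = 1)
    {ystar : ℝ} (hs : 0 < ystar) :
    -2 * psiFun ystar
      - kappaFun ystar * (∑ a ∈ range (K + 1), ∑ b ∈ range (K + 1 - a), Real.negMulLog (P a b)
          - 2 * gFun ystar)
      ≤ ∑ a ∈ range (K + 1), ∑ b ∈ range (K + 1 - a),
          ((a : ℝ) * P a b * Real.log (P a b / P (a - 1) b)
            + (b : ℝ) * P a b * Real.log (P a b / P a (b - 1))) := by
  set R : ℕ → ℝ := fun a => ∑ b ∈ range (K + 1 - a), P a b with hR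
  have hRpos : ∀ a, a ≤ K → 0 < R a := by
    intro a ha
    apply Finset.sum_pos
    · intro b hb
      exact hP a b (by have := mem_range.1 hb; omega)
    · exact nonempty_range_iff.2 (by omega)
  have hsumR : ∑ a ∈ range (K + 1), R a = 1 := hsum
  -- the second mode
  have hsecond : ∀ a ∈ range (K + 1),
      -(R a) * psiFun ystar
        - kappaFun ystar * (∑ b ∈ range (K + 1 - a), Real.negMulLog (P a b)
          + R a * Real.log (R a) - R a * gFun ystar)
      ≤ ∑ b ∈ range (K + 1 - a), (b : ℝ) * P a b * Real.log (P a b / P a (b - 1)) := by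
    intro a ha
    have ha' : a ≤ K := by
      have := mem_range.1 ha
      omega
    have h := oneD_bound (K - a) (P a) (fun j hj => hP a j (by omega)) hs
    rw [show K - a + 1 = K + 1 - a by omega] at h
    exact h
  -- the first mode
  have hfirst : ∀ a ∈ range (K + 1),
      (a : ℝ) * R a * Real.log (R a / R (a - 1))
      ≤ ∑ b ∈ range (K + 1 - a), (a : ℝ) * P a b * Real.log (P a b / P (a - 1) b) := by
    intro a ha
    have ha' : a ≤ K := by
      have := mem_range.1 ha
      omega
    rcases Nat.eq_zero_or_pos a with rfl | hapos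
    · simp
    · have h := log_sum_le (range (K + 1 - a)) (P a) (P (a - 1))
        (fun b hb => hP a b (by have := mem_range.1 hb; omega))
        (fun b hb => hP (a - 1) b (by have := mem_range.1 hb; omega))
        (U := R a) (V := R (a - 1)) rfl (hRpos a ha') (hRpos (a - 1) (by omega))
        (by
          simp only [hR]
          apply Finset.sum_le_sum_of_subset_of_nonneg
          · intro b hb
            simp only [mem_range] at hb ⊢
            omega
          · intro b hb _
            simp only [mem_range] at hb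
            exact (hP (a - 1) b (by omega)).le)
      have h2 := mul_le_mul_of_nonneg_left h (Nat.cast_nonneg (α := ℝ) a)
      rw [Finset.mul_sum] at h2
      calc _ = (a : ℝ) * (R a * Real.log (R a / R (a - 1))) := by ring
        _ ≤ _ := h2
        _ = _ := by
          apply Finset.sum_congr rfl
          intro b _
          ring
  -- the marginal
  have hmarg := oneD_bound K R hRpos hs
  rw [hsumR] at hmarg
  have hsum1 := Finset.sum_le_sum hsecond
  have hsum2 := Finset.sum_le_sum hfirst
  have hmarg2 : ∑ a ∈ range (K + 1), (a : ℝ) * R a * Real.log (R a / R (a - 1))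
      ≤ ∑ a ∈ range (K + 1), ∑ b ∈ range (K + 1 - a), (a : ℝ) * P a b * Real.log (P a b / P (a - 1) b) :=
    hsum2
  have hneg : ∑ a ∈ range (K + 1), Real.negMulLog (R a)
      = - ∑ a ∈ range (K + 1), R a * Real.log (R a) := by
    rw [← Finset.sum_neg_distrib]
    apply Finset.sum_congr rfl
    intro a _
    rw [Real.negMulLog]
    ring
  have hexp : ∑ a ∈ range (K + 1), (-(R a) * psiFun ystar
        - kappaFun ystar * (∑ b ∈ range (K + 1 - a), Real.negMulLog (P a b)
          + R a * Real.log (R a) - R a * gFun ystar))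
      = - psiFun ystar - kappaFun ystar * (∑ a ∈ range (K + 1), ∑ b ∈ range (K + 1 - a), Real.negMulLog (P a b)
          + ∑ a ∈ range (K + 1), R a * Real.log (R a) - gFun ystar) := by
    have e : ∀ a ∈ range (K + 1), (-(R a) * psiFun ystar
        - kappaFun ystar * (∑ b ∈ range (K + 1 - a), Real.negMulLog (P a b)
          + R a * Real.log (R a) - R a * gFun ystar))
        = (- psiFun ystar - kappaFun ystar * (- gFun ystar)) * R a
          - kappaFun ystar * (∑ b ∈ range (K + 1 - a), Real.negMulLog (P a b) + R a * Real.log (R a)) := by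
      intro a _
      ring
    rw [Finset.sum_congr rfl e, Finset.sum_sub_distrib, ← Finset.mul_sum, ← Finset.mul_sum, hsumR,
      Finset.sum_add_distrib]
    ring
  rw [hexp] at hsum1
  rw [hneg] at hmarg
  simp only [Real.log_one, mul_zero, one_mul, add_zero] at hmarg
  have hsplit : ∑ a ∈ range (K + 1), ∑ b ∈ range (K + 1 - a),
          ((a : ℝ) * P a b * Real.log (P a b / P (a - 1) b)
            + (b : ℝ) * P a b * Real.log (P a b / P a (b - 1)))
      = ∑ a ∈ range (K + 1), ∑ b ∈ range (K + 1 - a), (a : ℝ) * P a b * Real.log (P a b / P (a - 1) b)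
        + ∑ a ∈ range (K + 1), ∑ b ∈ range (K + 1 - a), (b : ℝ) * P a b * Real.log (P a b / P a (b - 1)) := by
    rw [← Finset.sum_add_distrib]
    apply Finset.sum_congr rfl
    intro a _
    rw [Finset.sum_add_distrib]
  rw [hsplit]
  have h3 := hmarg.trans hmarg2
  nlinarith [h3, hsum1]

end Vale.Agent.Lib.P369G
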