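import Vale.Agent.Lib.P369G.Rearr
import Vale.Agent.Lib.P369G.TwoD

/-! # P369: the entropy production bound for two-mode gauge-invariant states -/

namespace Vale.Agent.Lib.P369G

open Matrix Finset
open scoped ComplexOrder

noncomputable section

/-- `-dS/dτ`-type functional: `W(σ) = ∑_k (k tr σ_k log σ_k - tr Λ(σ_{k+1}) log σ_k)`. -/
def wFun (K : ℕ) (σ : Blocks) : ℝ :=
  ∑ k ∈ range (K + 1), ((k : ℝ) * (trace (σ k * Vale.Agent.Lib.P358.logm (σ k))).re
    - (trace (lamMap k (σ (k + 1)) * Vale.Agent.Lib.P358.logm (σ k))).re)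

/-- Sum over the triangle `a + b ≤ K`, indexed by the total number `k = a + b` and `j = b`. -/
theorem triangle_sum (K : ℕ) (f : ℕ → ℕ → ℝ) :
    ∑ a ∈ range (K + 1), ∑ b ∈ range (K + 1 - a), f a b =
      ∑ k ∈ range (K + 1), ∑ j ∈ range (k + 1), f (k - j) j := by
  rw [Finset.sum_sigma', Finset.sum_sigma']
  refine Finset.sum_nbij' (fun p => ⟨p.1 + p.2, p.2⟩) (fun p => ⟨p.1 - p.2, p.2⟩) ?_ ?_ ?_ ?_ ?_
  · rintro ⟨a, b⟩ h
    simp only [mem_sigma, mem_range] at h ⊢
    omega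
  · rintro ⟨k, j⟩ h
    simp only [mem_sigma, mem_range] at h ⊢
    omega
  · rintro ⟨a, b⟩ h
    simp only [mem_sigma, mem_range] at h ⊢
    simp
  · rintro ⟨k, j⟩ h
    simp only [mem_sigma, mem_range] at h ⊢
    have : k - j + j = k := by omega
    simp [this]
  · rintro ⟨a, b⟩ h
    simp

/-- Sorted eigenvalues as a plain function of two naturals. -/
def muK (K : ℕ) (σ : Blocks) (hpd : ∀ k, k ≤ K → (σ k).PosDef) (k j : ℕ) : ℝ :=
  if h : k ≤ K ∧ j ≤ k then sEig (hpd k h.1).1 ⟨j, by omega⟩ else 0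

theorem muK_pos (K : ℕ) (σ : Blocks) (hpd : ∀ k, k ≤ K → (σ k).PosDef) {k j : ℕ} (hk : k ≤ K)
    (hj : j ≤ k) : 0 < muK K σ hpd k j := by
  unfold muK
  rw [dif_pos ⟨hk, hj⟩]
  exact (hpd k hk).eigenvalues_pos _

theorem sum_muK (K : ℕ) (σ : Blocks) (hpd : ∀ k, k ≤ K → (σ k).PosDef) {k : ℕ} (hk : k ≤ K)
    (F : ℝ → ℝ) :
    ∑ j ∈ range (k + 1), F (muK K σ hpd k j) = ∑ i, F ((hpd k hk).1.eigenvalues i) := by
  rw [← sum_sEig (hpd k hk).1 F, ← Fin.sum_univ_eq_sum_range (fun j => F (muK K σ hpd k j))]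
  apply Finset.sum_congr rfl
  intro i _
  have : (i : ℕ) ≤ k := by omega
  unfold muK
  rw [dif_pos ⟨hk, this⟩]

theorem vnEnt_eq_sum (K : ℕ) (σ : Blocks) (hpd : ∀ k, k ≤ K → (σ k).PosDef) {k : ℕ} (hk : k ≤ K) :
    vnEnt (σ k) = ∑ j ∈ range (k + 1), Real.negMulLog (muK K σ hpd k j) := by
  rw [sum_muK K σ hpd hk]
  simp [vnEnt, (hpd k hk).1]

theorem trace_eq_sum_muK (K : ℕ) (σ : Blocks) (hpd : ∀ k, k ≤ K → (σ k).PosDef) {k : ℕ} (hk : k ≤ K) :
    (trace (σ k)).re = ∑ j ∈ range (k + 1), muK K σ hpd k j := by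
  rw [sum_muK K σ hpd hk (fun t => t), (hpd k hk).1.trace_eq_sum_eigenvalues]
  simp

theorem trace_mul_logm_self (K : ℕ) (σ : Blocks) (hpd : ∀ k, k ≤ K → (σ k).PosDef) {k : ℕ}
    (hk : k ≤ K) :
    (trace (σ k * Vale.Agent.Lib.P358.logm (σ k))).re
      = - ∑ j ∈ range (k + 1), Real.negMulLog (muK K σ hpd k j) := by
  rw [← vnEnt_eq_sum K σ hpd hk]
  have := Vale.Agent.Lib.P358.ent_eq_neg_trace_mul_logm (hpd k hk).1
  have h2 : Vale.Agent.Lib.P358.ent (σ k) = vnEnt (σ k) := rfl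
  rw [h2] at this
  linarith

/-- The rearrangement bound of a sector in terms of `muK`. -/
theorem sector_bound (K : ℕ) (σ : Blocks) (hpd : ∀ k, k ≤ K → (σ k).PosDef) {k : ℕ} (hk : k < K) :
    (trace (lamMap k (σ (k + 1)) * Vale.Agent.Lib.P358.logm (σ k))).re ≤
      ∑ j ∈ range (k + 1), (((k : ℝ) + 1 - (j : ℝ)) * muK K σ hpd (k + 1) j * Real.log (muK K σ hpd k j)
        + ((j : ℝ) + 1) * muK K σ hpd (k + 1) (j + 1) * Real.log (muK K σ hpd k j)) := by
  have h := sector_rearr k (hpd (k + 1) (by omega)).1 (hpd k (by omega))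
  refine h.trans (le_of_eq ?_)
  rw [← Fin.sum_univ_eq_sum_range (fun j => (((k : ℝ) + 1 - (j : ℝ)) * muK K σ hpd (k + 1) j * Real.log (muK K σ hpd k j)
        + ((j : ℝ) + 1) * muK K σ hpd (k + 1) (j + 1) * Real.log (muK K σ hpd k j)))]
  apply Finset.sum_congr rfl
  intro j _
  have hj : (j : ℕ) ≤ k := by omega
  have e1 : muK K σ hpd (k + 1) j = sEig (hpd (k + 1) (by omega)).1 j.castSucc := by
    unfold muK
    rw [dif_pos ⟨by omega, by omega⟩]
    rfl
  have e2 : muK K σ hpd (k + 1) ((j : ℕ) + 1) = sEig (hpd (k + 1) (by omega)).1 j.succ := by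
    unfold muK
    rw [dif_pos ⟨by omega, by omega⟩]
    rfl
  have e3 : muK K σ hpd k j = sEig (hpd k (by omega)).1 j := by
    unfold muK
    rw [dif_pos ⟨by omega, by omega⟩]
  rw [e1, e2, e3]

/-- One sector of the Fock diagonal functional, expressed in `muK`. -/
theorem sector_term (K : ℕ) (σ : Blocks) (hpd : ∀ k, k ≤ K → (σ k).PosDef) {k : ℕ} (hk : k + 1 ≤ K) :
    let P : ℕ → ℕ → ℝ := fun a b => muK K σ hpd (a + b) b
    ∑ j ∈ range (k + 2),
        (((k + 1 - j : ℕ) : ℝ) * P (k + 1 - j) j * Real.log (P (k + 1 - j) j / P (k + 1 - j - 1) j)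
          + (j : ℝ) * P (k + 1 - j) j * Real.log (P (k + 1 - j) j / P (k + 1 - j) (j - 1)))
      = ((k + 1 : ℕ) : ℝ) * (- ∑ j ∈ range (k + 2), Real.negMulLog (muK K σ hpd (k + 1) j))
        - ∑ j ∈ range (k + 1), (((k : ℝ) + 1 - (j : ℝ)) * muK K σ hpd (k + 1) j * Real.log (muK K σ hpd k j)
          + ((j : ℝ) + 1) * muK K σ hpd (k + 1) (j + 1) * Real.log (muK K σ hpd k j)) := by
  intro P
  set u : ℕ → ℝ := fun j => muK K σ hpd (k + 1) j with hu
  set v : ℕ → ℝ := fun j => muK K σ hpd k j with hv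
  have hupos : ∀ j, j ≤ k + 1 → 0 < u j := fun j hj => muK_pos K σ hpd hk hj
  have hvpos : ∀ j, j ≤ k → 0 < v j := fun j hj => muK_pos K σ hpd (by omega) hj
  have hP : ∀ j, j ≤ k + 1 → P (k + 1 - j) j = u j := by
    intro j hj
    simp only [P, hu]
    rw [Nat.sub_add_cancel hj]
  have hP1 : ∀ j, j ≤ k → P (k + 1 - j - 1) j = v j := by
    intro j hj
    simp only [P, hv]
    rw [show k + 1 - j - 1 + j = k by omega]
  have hP2 : ∀ j, j ≤ k → P (k + 1 - (j + 1)) j = v j := by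
    intro j hj
    simp only [P, hv]
    rw [show k + 1 - (j + 1) + j = k by omega]
  -- termwise expansion
  have hterm : ∀ j ∈ range (k + 2),
      (((k + 1 - j : ℕ) : ℝ) * P (k + 1 - j) j * Real.log (P (k + 1 - j) j / P (k + 1 - j - 1) j)
          + (j : ℝ) * P (k + 1 - j) j * Real.log (P (k + 1 - j) j / P (k + 1 - j) (j - 1)))
      = ((k + 1 : ℕ) : ℝ) * (- Real.negMulLog (u j))
        - ((k + 1 - j : ℕ) : ℝ) * u j * Real.log (v j)
        - (j : ℝ) * u j * Real.log (v (j - 1)) := by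
    intro j hj
    have hj' : j ≤ k + 1 := by
      have := mem_range.1 hj
      omega
    rw [hP j hj']
    have hcast : ((k + 1 : ℕ) : ℝ) = ((k + 1 - j : ℕ) : ℝ) + (j : ℝ) := by
      rw [← Nat.cast_add, Nat.sub_add_cancel hj']
    have hA : ((k + 1 - j : ℕ) : ℝ) * u j * Real.log (u j / P (k + 1 - j - 1) j)
        = ((k + 1 - j : ℕ) : ℝ) * u j * (Real.log (u j) - Real.log (v j)) := by
      rcases eq_or_lt_of_le hj' with rfl | hlt
      · simp
      · have hj2 : j ≤ k := by omega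
        rw [hP1 j hj2, Real.log_div (hupos j hj').ne' (hvpos j hj2).ne']
    have hB : (j : ℝ) * u j * Real.log (u j / P (k + 1 - j) (j - 1))
        = (j : ℝ) * u j * (Real.log (u j) - Real.log (v (j - 1))) := by
      rcases Nat.eq_zero_or_pos j with rfl | hpos
      · simp
      · have hj2 : j - 1 ≤ k := by omega
        have e : P (k + 1 - j) (j - 1) = v (j - 1) := by
          have := hP2 (j - 1) hj2
          rwa [show k + 1 - (j - 1 + 1) = k + 1 - j by omega] at this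
        rw [e, Real.log_div (hupos j hj').ne' (hvpos _ hj2).ne']
    rw [hA, hB, Real.negMulLog, hcast]
    ring
  rw [Finset.sum_congr rfl hterm]
  rw [Finset.sum_sub_distrib, Finset.sum_sub_distrib, ← Finset.mul_sum, Finset.sum_neg_distrib]
  -- the two partial sums
  have hfirst : ∑ j ∈ range (k + 2), ((k + 1 - j : ℕ) : ℝ) * u j * Real.log (v j)
      = ∑ j ∈ range (k + 1), ((k : ℝ) + 1 - (j : ℝ)) * u j * Real.log (v j) := by
    rw [Finset.sum_range_succ]
    simp only [Nat.sub_self, Nat.cast_zero, zero_mul, add_zero]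
    apply Finset.sum_congr rfl
    intro j hj
    have hj' : j ≤ k + 1 := by
      have := mem_range.1 hj
      omega
    rw [Nat.cast_sub hj']
    push_cast
    ring
  have hsecond : ∑ j ∈ range (k + 2), (j : ℝ) * u j * Real.log (v (j - 1))
      = ∑ j ∈ range (k + 1), ((j : ℝ) + 1) * u (j + 1) * Real.log (v j) := by
    rw [Finset.sum_range_succ']
    simp only [Nat.cast_zero, zero_mul, add_zero, Nat.add_sub_cancel]
    apply Finset.sum_congr rfl
    intro j _
    push_cast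
    ring
  rw [hfirst, hsecond, Finset.sum_add_distrib]
  ring

/-- Sector `0` of the Fock diagonal functional vanishes. -/
theorem sector_term_zero (K : ℕ) (σ : Blocks) (hpd : ∀ k, k ≤ K → (σ k).PosDef) :
    let P : ℕ → ℕ → ℝ := fun a b => muK K σ hpd (a + b) b
    ∑ j ∈ range (0 + 1),
        (((0 - j : ℕ) : ℝ) * P (0 - j) j * Real.log (P (0 - j) j / P (0 - j - 1) j)
          + (j : ℝ) * P (0 - j) j * Real.log (P (0 - j) j / P (0 - j) (j - 1))) = 0 := by
  intro P
  simp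

theorem wFun_bound (K : ℕ) (σ : Blocks) (hpd : ∀ k, k ≤ K → (σ k).PosDef)
    (hsupp : ∀ k, K < k → σ k = 0)
    (htr : ∑ k ∈ range (K + 1), (trace (σ k)).re = 1) {ystar : ℝ} (hs : 0 < ystar) :
    -2 * psiFun ystar - kappaFun ystar * (totalEnt K σ - 2 * gFun ystar) ≤ wFun K σ := by
  set P : ℕ → ℕ → ℝ := fun a b => muK K σ hpd (a + b) b with hPdef
  have hPpos : ∀ a b, a + b ≤ K → 0 < P a b := by
    intro a b hab
    exact muK_pos K σ hpd hab (by omega)
  have hcol : ∀ (F : ℕ → ℕ → ℝ), ∑ a ∈ range (K + 1), ∑ b ∈ range (K + 1 - a), F a b =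
      ∑ k ∈ range (K + 1), ∑ j ∈ range (k + 1), F (k - j) j := triangle_sum K
  have hPk : ∀ k j, j ≤ k → P (k - j) j = muK K σ hpd k j := by
    intro k j hj
    simp only [hPdef]
    rw [Nat.sub_add_cancel hj]
  have hsum : ∑ a ∈ range (K + 1), ∑ b ∈ range (K + 1 - a), P a b = 1 := by
    rw [hcol, ← htr]
    apply Finset.sum_congr rfl
    intro k hk
    have hk' : k ≤ K := by
      have := mem_range.1 hk
      omega
    rw [trace_eq_sum_muK K σ hpd hk']
    apply Finset.sum_congr rfl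
    intro j hj
    have hj' : j ≤ k := by
      have := mem_range.1 hj
      omega
    exact hPk k j hj'
  have hent : ∑ a ∈ range (K + 1), ∑ b ∈ range (K + 1 - a), Real.negMulLog (P a b) = totalEnt K σ := by
    rw [hcol]
    unfold totalEnt
    apply Finset.sum_congr rfl
    intro k hk
    have hk' : k ≤ K := by
      have := mem_range.1 hk
      omega
    rw [vnEnt_eq_sum K σ hpd hk']
    apply Finset.sum_congr rfl
    intro j hj
    have hj' : j ≤ k := by
      have := mem_range.1 hj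
      omega
    rw [hPk k j hj']
  have h2D := twoD_bound K P hPpos hsum hs
  rw [hent] at h2D
  refine h2D.trans ?_
  -- compare the Fock diagonal functional with `wFun`
  rw [hcol]
  unfold wFun
  -- peel `k = 0` in the Fock functional and `k = K` in `wFun`
  rw [Finset.sum_range_succ' _ K, Finset.sum_range_succ _ K]
  have hK0 : lamMap K (σ (K + 1)) = 0 := by
    rw [hsupp (K + 1) (by omega)]
    simp [lamMap]
  have htop : (trace (lamMap K (σ (K + 1)) * Vale.Agent.Lib.P358.logm (σ K))).re = 0 := by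
    rw [hK0]
    simp
  rw [htop, sub_zero]
  have hzero := sector_term_zero K σ hpd
  simp only at hzero
  have hzero' : ∑ j ∈ range (0 + 1),
      (((0 - j : ℕ) : ℝ) * P (0 - j) j * Real.log (P (0 - j) j / P (0 - j - 1) j)
          + (j : ℝ) * P (0 - j) j * Real.log (P (0 - j) j / P (0 - j) (j - 1))) = 0 := hzero
  rw [hzero', add_zero]
  -- sectorwise
  have hsec : ∀ k ∈ range K,
      ∑ j ∈ range (k + 1 + 1),
        (((k + 1 - j : ℕ) : ℝ) * P (k + 1 - j) j * Real.log (P (k + 1 - j) j / P (k + 1 - j - 1) j)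
          + (j : ℝ) * P (k + 1 - j) j * Real.log (P (k + 1 - j) j / P (k + 1 - j) (j - 1)))
      ≤ ((k + 1 : ℕ) : ℝ) * (trace (σ (k + 1) * Vale.Agent.Lib.P358.logm (σ (k + 1)))).re
        - (trace (lamMap k (σ (k + 1)) * Vale.Agent.Lib.P358.logm (σ k))).re := by
    intro k hk
    have hk' : k < K := mem_range.1 hk
    have h1 := sector_term K σ hpd (k := k) (by omega)
    simp only at h1
    rw [trace_mul_logm_self K σ hpd (k := k + 1) (by omega)]
    have h3 := sector_bound K σ hpd hk'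
    have h4 : ∑ j ∈ range (k + 1 + 1),
        (((k + 1 - j : ℕ) : ℝ) * P (k + 1 - j) j * Real.log (P (k + 1 - j) j / P (k + 1 - j - 1) j)
          + (j : ℝ) * P (k + 1 - j) j * Real.log (P (k + 1 - j) j / P (k + 1 - j) (j - 1)))
      = ((k + 1 : ℕ) : ℝ) * (- ∑ j ∈ range (k + 2), Real.negMulLog (muK K σ hpd (k + 1) j))
        - ∑ j ∈ range (k + 1), (((k : ℝ) + 1 - (j : ℝ)) * muK K σ hpd (k + 1) j * Real.log (muK K σ hpd k j)
          + ((j : ℝ) + 1) * muK K σ hpd (k + 1) (j + 1) * Real.log (muK K σ hpd k j)) := h1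
    rw [h4]
    linarith
  have hsum2 := Finset.sum_le_sum hsec
  -- reindex the right side
  have hre : ∑ k ∈ range K, (((k : ℝ) * (trace (σ k * Vale.Agent.Lib.P358.logm (σ k))).re
        - (trace (lamMap k (σ (k + 1)) * Vale.Agent.Lib.P358.logm (σ k))).re))
      + (K : ℝ) * (trace (σ K * Vale.Agent.Lib.P358.logm (σ K))).re
      = ∑ k ∈ range K, (((k + 1 : ℕ) : ℝ) * (trace (σ (k + 1) * Vale.Agent.Lib.P358.logm (σ (k + 1)))).re
        - (trace (lamMap k (σ (k + 1)) * Vale.Agent.Lib.P358.logm (σ k))).re) := by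
    rw [Finset.sum_sub_distrib, Finset.sum_sub_distrib]
    have h5 := Finset.sum_range_succ (fun k : ℕ => (k : ℝ) * (trace (σ k * Vale.Agent.Lib.P358.logm (σ k))).re) K
    have h6 := Finset.sum_range_succ' (fun k : ℕ => (k : ℝ) * (trace (σ k * Vale.Agent.Lib.P358.logm (σ k))).re) K
    simp only [Nat.cast_zero, zero_mul, add_zero] at h6
    linarith
  rw [hre]
  exact hsum2

end

end Vale.Agent.Lib.P369G
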